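import Vale.Agent.P329.Clock.Cut

set_option linter.all false

/-!
The machine which reads marks and jumps at the end of a block.
-/

namespace Vale.Agent.P329.Clock

open Vale.Agent.P329 Vale.Agent.P329.Slow Vale.Agent.P329.Mark

section lists

variable {α : Type}

/-- the window of length `m` at position `i` -/
def win (m i : ℕ) (w : List α) : List α := (w.drop i).take m

theorem win_append {m i : ℕ} {w z : List α} (h : i + m ≤ w.length) :
    win m i (w ++ z) = win m i w := by
  unfold win
  rw [List.drop_append_of_le_length (by omega),
    List.take_append_of_le_length (by rw [List.length_drop]; omega)]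

theorem win_shift {m i : ℕ} (u w : List α) : win m (u.length + i) (u ++ w) = win m i w := by
  unfold win
  rw [List.drop_append, List.drop_eq_nil_of_le (by omega), List.nil_append,
    Nat.add_sub_cancel_left]

theorem win_last {m i : ℕ} {w : List α} (h : w.length ≤ i + m) : win m i w = w.drop i := by
  unfold win
  rw [List.take_of_length_le (by rw [List.length_drop]; omega)]

theorem win_zero {m : ℕ} (w : List α) : win m 0 w = w.take m := by
  unfold win
  rw [List.drop_zero]

theorem win_take {m i n : ℕ} {w : List α} (h : i + m ≤ n) :
    win m i (w.take n) = win m i w := by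
  unfold win
  rw [List.drop_take, List.take_take, min_eq_left (by omega)]

theorem win_drop {m i n : ℕ} (w : List α) : win m i (w.drop n) = win m (n + i) w := by
  unfold win
  rw [List.drop_drop]

end lists

section machine

variable {α V : Type} [AddCommGroup V] (M : α → V →+ V) (U : Set (List α)) (m : ℕ)
  (τ : List α → V)

open Classical in
/-- one step of the machine: the state is a vector together with the current block -/
noncomputable def step (s : V × List α) (a : α) : V × List α :=
  if m < (s.2 ++ [a]).length ∧ (s.2 ++ [a]).drop ((s.2 ++ [a]).length - m) ∈ U then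
    (act M ((s.2 ++ [a]).take ((s.2 ++ [a]).length - m)) s.1 + τ (s.2 ++ [a]),
      (s.2 ++ [a]).drop ((s.2 ++ [a]).length - m))
  else (s.1, s.2 ++ [a])

noncomputable def run (s : V × List α) (w : List α) : V × List α := w.foldl (step M U m τ) s

/-- the current value -/
def vl (s : V × List α) : V := act M s.2 s.1

variable {M U m τ}

theorem run_nil (s : V × List α) : run M U m τ s [] = s := rfl

theorem run_cons (s : V × List α) (a : α) (w : List α) :
    run M U m τ s (a :: w) = run M U m τ (step M U m τ s a) w := rfl

theorem run_append (s : V × List α) (w w' : List α) :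
    run M U m τ s (w ++ w') = run M U m τ (run M U m τ s w) w' := List.foldl_append

theorem run_single (s : V × List α) (a : α) : run M U m τ s [a] = step M U m τ s a := rfl

theorem step_mark {v : V} {B : List α} {a : α} (h1 : m < (B ++ [a]).length)
    (h2 : (B ++ [a]).drop ((B ++ [a]).length - m) ∈ U) :
    step M U m τ (v, B) a = (act M ((B ++ [a]).take ((B ++ [a]).length - m)) v + τ (B ++ [a]),
      (B ++ [a]).drop ((B ++ [a]).length - m)) := by
  unfold step
  rw [if_pos ⟨h1, h2⟩]

theorem step_quiet {v : V} {B : List α} {a : α} (h : ¬ (m < (B ++ [a]).length ∧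
    (B ++ [a]).drop ((B ++ [a]).length - m) ∈ U)) :
    step M U m τ (v, B) a = (v, B ++ [a]) := by
  unfold step
  rw [if_neg h]

theorem run_linear (w : List α) : ∀ (v v' : V) (B : List α),
    (run M U m τ (v, B) w).2 = (run M U m τ (v', B) w).2 ∧
      vl M (run M U m τ (v, B) w) - vl M (run M U m τ (v', B) w) =
        act M w (vl M (v, B) - vl M (v', B)) := by
  induction w with
  | nil => intro v v' B; exact ⟨rfl, rfl⟩
  | cons a w ih =>
    intro v v' B
    rw [run_cons, run_cons]
    by_cases h : m < (B ++ [a]).length ∧ (B ++ [a]).drop ((B ++ [a]).length - m) ∈ U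
    · rw [step_mark h.1 h.2, step_mark h.1 h.2]
      refine ⟨(ih _ _ _).1, ?_⟩
      rw [(ih _ _ _).2]
      show act M w _ = act M ([a] ++ w) _
      rw [act_append]
      congr 1
      unfold vl
      dsimp only
      rw [act_add, act_add, add_sub_add_right_eq_sub, ← act_append, ← act_append,
        List.take_append_drop, act_append, act_append, act_sub]
    · rw [step_quiet h, step_quiet h]
      refine ⟨(ih _ _ _).1, ?_⟩
      rw [(ih _ _ _).2]
      show act M w _ = act M ([a] ++ w) _
      rw [act_append]
      congr 1
      unfold vl
      dsimp only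
      rw [act_append, act_append, act_sub]

theorem run_quiet {v : V} {B w : List α} (h : ∀ i, 0 < i → B.length < i + m →
    i + m ≤ (B ++ w).length → win m i (B ++ w) ∉ U) :
    run M U m τ (v, B) w = (v, B ++ w) := by
  induction w using List.reverseRecOn with
  | nil => rw [run_nil, List.append_nil]
  | append_singleton w a ih =>
    rw [run_append, ih, run_single]
    · rw [step_quiet, List.append_assoc]
      rintro ⟨h1, h2⟩
      have e : (B ++ w ++ [a]) = B ++ (w ++ [a]) := List.append_assoc _ _ _
      rw [e] at h1 h2
      refine h ((B ++ (w ++ [a])).length - m) (by omega) ?_ (by omega) ?_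
      · rw [Nat.sub_add_cancel h1.le]
        simp only [List.length_append, List.length_cons, List.length_nil]
        omega
      · rw [win_last (by omega)]
        exact h2
    · intro i h1 h2 h3 h4
      refine h i h1 h2 ?_ ?_
      · rw [← List.append_assoc, List.length_append]; omega
      · rw [← List.append_assoc, win_append h3]; exact h4

theorem run_mark {v : V} {B w : List α} (hw : w ≠ []) (h : ∀ i, 0 < i → B.length < i + m →
    i + m < (B ++ w).length → win m i (B ++ w) ∉ U) (hm : m < (B ++ w).length)
    (hU : (B ++ w).drop ((B ++ w).length - m) ∈ U) :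
    run M U m τ (v, B) w = (act M ((B ++ w).take ((B ++ w).length - m)) v + τ (B ++ w),
      (B ++ w).drop ((B ++ w).length - m)) := by
  obtain ⟨w', a, rfl⟩ : ∃ w' a, w = w' ++ [a] :=
    ⟨w.dropLast, w.getLast hw, (List.dropLast_append_getLast hw).symm⟩
  have e : B ++ (w' ++ [a]) = B ++ w' ++ [a] := (List.append_assoc _ _ _).symm
  rw [e] at h hm hU ⊢
  have hq : run M U m τ (v, B) w' = (v, B ++ w') := by
    refine run_quiet fun i h1 h2 h3 h4 => ?_
    refine h i h1 h2 ?_ ?_
    · rw [List.length_append (bs := [a])]
      simp only [List.length_cons, List.length_nil]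
      omega
    · rw [win_append h3]; exact h4
  rw [run_append, hq, run_single, step_mark hm hU]

theorem run_buf (x : V) (w : List α) : (run M U m τ (x, []) w).2 <:+ w ∧
    ((run M U m τ (x, []) w).2 = w ∨ m ≤ (run M U m τ (x, []) w).2.length) := by
  induction w using List.reverseRecOn with
  | nil => exact ⟨List.suffix_refl _, Or.inl rfl⟩
  | append_singleton w a ih =>
    obtain ⟨h1, h2⟩ := ih
    rw [run_append, run_single]
    generalize run M U m τ (x, []) w = s at h1 h2
    obtain ⟨v, B⟩ := s
    dsimp only at h1 h2
    have h3 : B ++ [a] <:+ w ++ [a] := by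
      obtain ⟨t, rfl⟩ := h1
      exact ⟨t, by simp⟩
    by_cases h : m < (B ++ [a]).length ∧ (B ++ [a]).drop ((B ++ [a]).length - m) ∈ U
    · rw [step_mark h.1 h.2]
      dsimp only
      refine ⟨(List.drop_suffix _ _).trans h3, Or.inr ?_⟩
      rw [List.length_drop]; omega
    · rw [step_quiet h]
      dsimp only
      refine ⟨h3, ?_⟩
      rcases h2 with h2 | h2
      · exact Or.inl (by rw [h2])
      · right
        rw [List.length_append]; omega

theorem run_win (x : V) (u W : List α) (hm : 0 < m) (hW : W.length = m) (hU : W ∈ U) :
    ∃ v, run M U m τ (x, []) (u ++ W) = (v, W) := by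
  by_cases hu : u = []
  · subst hu
    refine ⟨x, ?_⟩
    rw [List.nil_append]
    refine run_quiet (B := []) fun i h1 h2 h3 => ?_
    rw [List.nil_append] at h3
    omega
  · have hW0 : W ≠ [] := by
      rintro rfl
      simp at hW
      omega
    obtain ⟨W', a, rfl⟩ : ∃ w' a, W = w' ++ [a] :=
      ⟨W.dropLast, W.getLast hW0, (List.dropLast_append_getLast hW0).symm⟩
    rw [← List.append_assoc, run_append]
    have h := run_buf (M := M) (U := U) (m := m) (τ := τ) x (u ++ W')
    obtain ⟨h1, h2⟩ := h
    generalize run M U m τ (x, []) (u ++ W') = s at h1 h2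
    obtain ⟨v, B⟩ := s
    dsimp only at h1 h2
    have h3 : B ++ [a] <:+ u ++ (W' ++ [a]) := by
      obtain ⟨t, ht⟩ := h1
      exact ⟨t, by rw [← List.append_assoc, ht, List.append_assoc]⟩
    have hul : 0 < u.length := List.length_pos_iff.2 hu
    rw [List.length_append] at hW
    have h4 : m ≤ B.length := by
      rcases h2 with h2 | h2
      · rw [h2, List.length_append]
        simp only [List.length_cons, List.length_nil] at hW
        omega
      · exact h2
    have h5 : m < (B ++ [a]).length := by
      rw [List.length_append]
      simp only [List.length_cons, List.length_nil]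
      omega
    have h6 : (B ++ [a]).drop ((B ++ [a]).length - m) = W' ++ [a] := by
      have h7 : (B ++ [a]).drop ((B ++ [a]).length - m) <:+ u ++ (W' ++ [a]) :=
        (List.drop_suffix _ _).trans h3
      have h8 : ((B ++ [a]).drop ((B ++ [a]).length - m)).length = m := by
        rw [List.length_drop]; omega
      exact (List.suffix_of_suffix_length_le h7 (List.suffix_append _ _)
        (by rw [h8, List.length_append]; omega)).eq_of_length
        (by rw [h8, List.length_append]; omega)
    rw [run_single, step_mark h5 (by rw [h6]; exact hU), h6]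
    exact ⟨_, rfl⟩

/-- after a window which starts a quiet block, the current block is this block -/
theorem run_block {x v : V} {u W : List α} (h : run M U m τ (x, []) (u ++ W) = (v, W))
    (hW : W.length = m) {z : List α} (hz : ∀ i, 0 < i → i + m ≤ (W ++ z).length →
      win m i (W ++ z) ∉ U) : run M U m τ (x, []) (u ++ (W ++ z)) = (v, W ++ z) := by
  rw [← List.append_assoc, run_append, h]
  exact run_quiet fun i h1 _ h3 => hz i h1 h3

end machine

end Vale.Agent.P329.Clock
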