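import Vale.Agent.P329.Clock.Local
import Vale.Agent.P329.Clock.Run

set_option linter.all false

/-!
The cut system of blocks between two marks.
-/

namespace Vale.Agent.P329.Clock

open Vale.Agent.P329 Vale.Agent.P329.Slow Vale.Agent.P329.Mark

section data

variable {α V : Type} [AddCommGroup V] (M : α → V →+ V)

/-- the segment number `j` of a block -/
def seg (t : ℕ → ℕ) (j : ℕ) (x : List α) : List α := (x.take (t (j + 1))).drop (t j)

/-- the actions of the segments -/
def dat (t : ℕ → ℕ) (K : ℕ) (x : List α) : Fin K → (V → V) := fun j => act M (seg t j x)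

/-- composition -/
def cmp (f : ℕ → V → V) : ℕ → V → V
  | 0, y => y
  | j + 1, y => f j (cmp f j y)

/-- composition of data -/
def hh (K : ℕ) (a : Fin K → (V → V)) (y : V) : V :=
  cmp (fun j => if h : j < K then a ⟨j, h⟩ else id) K y

theorem hh_dat {t : ℕ → ℕ} {K : ℕ} (h0 : t 0 = 0) (ht : ∀ j < K, t j ≤ t (j + 1))
    (x : List α) (hx : x.length ≤ t K) (y : V) : hh K (dat M t K x) y = act M x y := by
  have h : ∀ j ≤ K, cmp (fun j => if h : j < K then dat M t K x ⟨j, h⟩ else id) j y =
      act M (x.take (t j)) y := by
    intro j
    induction j with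
    | zero => intro _; rw [h0, List.take_zero]; rfl
    | succ j ih =>
      intro hj
      show (if h : j < K then dat M t K x ⟨j, h⟩ else id) (cmp _ j y) = _
      rw [ih (by omega), dif_pos (by omega : j < K)]
      show act M (seg t j x) _ = _
      rw [← act_append]
      congr 1
      have h1 : x.take (t j) = (x.take (t (j + 1))).take (t j) := by
        rw [List.take_take, min_eq_left (ht j (by omega))]
      rw [h1]
      exact List.take_append_drop _ _
  unfold hh
  rw [h K le_rfl, List.take_of_length_le hx]

theorem seg_left {t : ℕ → ℕ} {j : ℕ} {B z : List α} (h : t (j + 1) ≤ B.length) :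
    seg t j (B ++ z) = seg t j B := by
  unfold seg
  rw [List.take_append_of_le_length h]

theorem seg_right {t : ℕ → ℕ} {j : ℕ} {B B' z : List α} (hB : B.length = B'.length)
    (h : B'.length ≤ t j) : seg t j (B ++ z) = seg t j (B' ++ z) := by
  unfold seg
  rw [List.drop_take, List.drop_take, List.drop_append, List.drop_append,
    List.drop_eq_nil_of_le (by omega), List.drop_eq_nil_of_le (by omega : B'.length ≤ t j), hB]

end data

section kinds

/-- the kinds of blocks which occur in the presence of cuts -/
inductive Kind (ρ : Type) : Type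
  | G : Kind ρ
  | F : ρ → ρ → Kind ρ
  | L : ρ → Kind ρ
  | R : ρ → Kind ρ

variable {ρ : Type}

/-- a block of length `l` may be of the kind -/
def HasK (o : ρ → ℕ) (q e m l : ℕ) : Kind ρ → Prop
  | .G => ∃ t, q ≤ t * q ∧ t * q ≤ l ∧ l ≤ t * q + e
  | .F r r' => r ≠ r' ∧ ∃ t, q ≤ t * q ∧ t * q + o r ≤ l + o r' ∧ l + o r' ≤ t * q + e + o r
  | .L r => l < o r ∧ o r < l + m
  | .R r => ∃ t, q ≤ t * q ∧ t * q < l + o r ∧ l + o r < t * q + e + m

/-- offsets which can be recognised -/
structure Offs (o : ρ → ℕ) (q e m : ℕ) : Prop where
  mpos : 0 < m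
  O1 : ∀ r, 2 * m ≤ o r
  O2 : ∀ r s, o r + o s + e + m ≤ q
  O3 : ∀ r, e + m ≤ o r
  O4 : ∀ r s r', e + m + o r' ≤ o r + o s
  O5 : ∀ r s, r ≠ s → e + m + o r ≤ o s ∨ e + m + o s ≤ o r
  O6 : ∀ r r' s s', o r + o s' < o r' + o s + e + m → o r' + o s < o r + o s' + e + m →
    (r = r' ∧ s = s') ∨ (r = s ∧ r' = s')

variable {o : ρ → ℕ} {q e m : ℕ}

/-- two multiples are equal or far apart -/
theorem mul_cases (t t' q : ℕ) : t * q = t' * q ∨ t * q + q ≤ t' * q ∨ t' * q + q ≤ t * q := by
  rcases lt_trichotomy t t' with h | h | h
  · right; left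
    have := Nat.mul_le_mul_right q h
    rw [Nat.succ_mul] at this
    exact this
  · left; rw [h]
  · right; right
    have := Nat.mul_le_mul_right q h
    rw [Nat.succ_mul] at this
    exact this

theorem Offs.short (h : Offs o q e m) {l : ℕ} {κ : Kind ρ} (hq : m ≤ q)
    (hk : HasK o q e m l κ) : m ≤ l := by
  cases κ with
  | G =>
    obtain ⟨t, h1, h2, h3⟩ := hk
    omega
  | F r r' =>
    obtain ⟨h2, t, h3, h4, h5⟩ := hk
    have := h.O2 r' r
    have := h.O1 r
    omega
  | L r =>
    obtain ⟨h2, h3⟩ := hk
    have := h.O1 r
    omega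
  | R r =>
    obtain ⟨t, h2, h3, h4⟩ := hk
    have := h.O2 r r
    have := h.O1 r
    omega

theorem Offs.uniq (h : Offs o q e m) {l : ℕ} {κ κ' : Kind ρ} (hk : HasK o q e m l κ)
    (hk' : HasK o q e m l κ') : κ = κ' := by
  have hm := h.mpos
  have key : ∀ κ κ' : Kind ρ, HasK o q e m l κ → HasK o q e m l κ' → κ = κ' ∨
      (match κ, κ' with
        | .F _ _, .G => True
        | .L _, .G => True
        | .R _, .G => True
        | .L _, .F _ _ => True
        | .R _, .F _ _ => True
        | .R _, .L _ => True
        | _, _ => False) := by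
    intro κ κ' hk hk'
    cases κ with
    | G =>
      cases κ' with
      | G => exact Or.inl rfl
      | F r r' =>
        exfalso
        obtain ⟨t, h0, h1, h2⟩ := hk
        obtain ⟨h3, t', h0', h4, h5⟩ := hk'
        have := h.O2 r r'
        rcases mul_cases t t' q with h7 | h7 | h7
        · rcases h.O5 r r' h3 with h6 | h6 <;> omega
        · omega
        · omega
      | L r =>
        exfalso
        obtain ⟨t, h0, h1, h2⟩ := hk
        obtain ⟨h3, h4⟩ := hk'
        have := h.O2 r r
        omega
      | R r =>
        exfalso
        obtain ⟨t, h0, h1, h2⟩ := hk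
        obtain ⟨t', h0', h3, h4⟩ := hk'
        have := h.O3 r
        have := h.O2 r r
        rcases mul_cases t t' q with h7 | h7 | h7 <;> omega
    | F r r' =>
      cases κ' with
      | G => exact Or.inr trivial
      | F s s' =>
        obtain ⟨h1, t, h0, h2, h3⟩ := hk
        obtain ⟨h4, t', h0', h5, h6⟩ := hk'
        rcases mul_cases t t' q with h7 | h7 | h7
        · rcases h.O6 r r' s s' (by omega) (by omega) with ⟨h7, h8⟩ | ⟨rfl, rfl⟩
          · exact absurd h7 h1
          · exact Or.inl rfl
        · exfalso
          have := h.O2 r s'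
          omega
        · exfalso
          have := h.O2 s r'
          omega
      | L s =>
        exfalso
        obtain ⟨h1, t, h0, h2, h3⟩ := hk
        obtain ⟨h4, h5⟩ := hk'
        have := h.O2 s r'
        omega
      | R s =>
        exfalso
        obtain ⟨h1, t, h0, h2, h3⟩ := hk
        obtain ⟨t', h0', h4, h5⟩ := hk'
        have := h.O4 r s r'
        have := h.O2 r s
        have := h.O2 r' r'
        rcases mul_cases t t' q with h7 | h7 | h7 <;> omega
    | L r =>
      cases κ' with
      | G => exact Or.inr trivial
      | F s s' => exact Or.inr trivial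
      | L s =>
        obtain ⟨h1, h2⟩ := hk
        obtain ⟨h3, h4⟩ := hk'
        by_cases hrs : r = s
        · exact Or.inl (by rw [hrs])
        · exfalso
          rcases h.O5 r s hrs with h6 | h6 <;> omega
      | R s =>
        exfalso
        obtain ⟨h1, h2⟩ := hk
        obtain ⟨t', h0', h3, h4⟩ := hk'
        have := h.O2 r s
        omega
    | R r =>
      cases κ' with
      | G => exact Or.inr trivial
      | F s s' => exact Or.inr trivial
      | L s => exact Or.inr trivial
      | R s =>
        obtain ⟨t, h0, h1, h2⟩ := hk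
        obtain ⟨t', h0', h3, h4⟩ := hk'
        by_cases hrs : r = s
        · exact Or.inl (by rw [hrs])
        · exfalso
          have := h.O2 r s
          rcases mul_cases t t' q with h7 | h7 | h7
          · rcases h.O5 r s hrs with h6 | h6 <;> omega
          · omega
          · omega
  rcases key κ κ' hk hk' with h1 | h1
  · exact h1
  · rcases key κ' κ hk' hk with h2 | h2
    · exact h2.symm
    · exfalso
      cases κ <;> cases κ' <;> simp at h1 h2

end kinds

section sys

variable {α V : Type} [AddCommGroup V]

/-- the kinds of cuts -/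
abbrev Rul (V : Type) (K : ℕ) : Type := Fin K × ((Fin K → (V → V)) × V)

variable {K : ℕ} (M : α → V →+ V) (U : Set (List α)) (m q e b : ℕ) (t : ℕ → ℕ)
  (o : Rul V K → ℕ) (f : (Fin K → (V → V)) → V)

/-- value on the left of a cut, transported to the left mark -/
def wv (r : Rul V K) : V := r.2.2

/-- value on the right of a cut, transported to the right mark -/
def uv (r : Rul V K) : V := hh K r.2.1 r.2.2 + f r.2.1

/-- the cut can be made for this kind -/
def Actv (r : Rul V K) : Prop := Srv (hh K) r.1 r.2.1 r.2.2 f

/-- the jump of a block `P` -/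
def jump (P : List α) : Kind (Rul V K) → V
  | .G => f (dat M t K P)
  | .F r r' => uv f r' - act M P (wv r)
  | .L r => - act M P (wv r)
  | .R r => uv f r

open Classical in
/-- the jump at the end of a block -/
noncomputable def jmp (B : List α) : V :=
  if h : ∃ κ, HasK o q e m (B.length - m) κ then jump M t f (B.take (B.length - m)) h.choose
  else 0

/-- a word which may end before the cut `r` -/
def PLf (r : Rul V K) (u : List α) : Prop :=
  Actv f r ∧ o r ≤ u.length ∧ (u.drop (u.length - o r)).take m ∈ U ∧
    (∀ i, 0 < i → i + m ≤ o r → win m i (u.drop (u.length - o r)) ∉ U) ∧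
    ∀ j : Fin K, (j : ℕ) < r.1 → dat M t K (u.drop (u.length - o r)) j = r.2.1 j

/-- a word which may start after the cut `r`, the next mark is at distance `d` -/
def PRd (r : Rul V K) (z : List α) (d : ℕ) : Prop :=
  (∃ n, q ≤ n * q ∧ n * q ≤ d + o r ∧ d + o r ≤ n * q + e) ∧ d + o r ≤ b ∧ d + m ≤ z.length ∧ win m d z ∈ U ∧ (∀ i < d, win m i z ∉ U) ∧
    ∀ B : List α, B.length = o r → ∀ j : Fin K, (r.1 : ℕ) < j →
      dat M t K (B ++ z.take d) j = r.2.1 j

/-- a word which may start after the cut `r` -/
def PRf (r : Rul V K) (z : List α) : Prop := Actv f r ∧ ∃ d, PRd M U m q e b t o r z d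

/-- the value before the cut -/
def lamf (r : Rul V K) (u : List α) : V := act M (u.drop (u.length - o r)) (wv r)

open Classical in
/-- the position of the first mark -/
noncomputable def fst1 (z : List α) : ℕ :=
  if h : ∃ d, d + m ≤ z.length ∧ win m d z ∈ U then Nat.find h else 0

/-- the value after the word `z` started behind the cut -/
noncomputable def Psif (r : Rul V K) (z : List α) : V :=
  vl M (run M U m (jmp M m q e t o f) (uv f r, win m (fst1 U m z) z) (z.drop (fst1 U m z + m)))

/-- the value of a strand -/
noncomputable def Ef (w : List α) (x : V) : V := vl M (run M U m (jmp M m q e t o f) (x, []) w)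

/-- all requirements on the parameters -/
structure Par : Prop extends Offs o q e m where
  t0 : t 0 = 0
  tmono : ∀ j < K, t j ≤ t (j + 1)
  tK : b ≤ t K
  tl : ∀ (r : Rul V K) (j : ℕ), j < r.1 → t (j + 1) ≤ o r
  tr : ∀ (r : Rul V K) (j : ℕ), (r.1 : ℕ) < j → j < K → o r ≤ t j

variable {M U m q e b t o f}

theorem jmp_eq (hP : Offs o q e m) {B : List α} {κ : Kind (Rul V K)}
    (h : HasK o q e m (B.length - m) κ) :
    jmp M m q e t o f B = jump M t f (B.take (B.length - m)) κ := by
  have h1 : ∃ κ, HasK o q e m (B.length - m) κ := ⟨κ, h⟩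
  unfold jmp
  rw [dif_pos h1, hP.uniq h1.choose_spec h]

theorem jmp_short (hP : Offs o q e m) (hq : m ≤ q) {B : List α} (h : B.length - m < m) :
    jmp M m q e t o f B = 0 := by
  unfold jmp
  rw [dif_neg]
  rintro ⟨κ, hk⟩
  have := hP.short hq hk
  omega

theorem fst1_eq {z : List α} {d : ℕ} (h1 : d + m ≤ z.length) (h2 : win m d z ∈ U)
    (h3 : ∀ i < d, win m i z ∉ U) : fst1 U m z = d := by
  classical
  have h : ∃ d, d + m ≤ z.length ∧ win m d z ∈ U := ⟨d, h1, h2⟩
  unfold fst1
  rw [dif_pos h]
  have e1 : Nat.find h ≤ d := Nat.find_min' h ⟨h1, h2⟩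
  have e2 := Nat.find_spec h
  by_contra hne
  exact h3 _ (by omega) e2.2

/-- the start of a junction: marks which overlap both sides -/
theorem junc_short (hP : Offs o q e m) {r : Rul V K} {B z : List α} (hB : B.length = o r)
    (c : ℕ) (hc : c < m) (hz : c ≤ z.length) :
    run M U m (jmp M m q e t o f) (wv r, B) (z.take c) = (wv r, B ++ z.take c) ∨
      ∃ C, run M U m (jmp M m q e t o f) (wv r, B) (z.take c) = (0, C) ∧
        C <:+ B ++ z.take c ∧ m ≤ C.length ∧ C.length < m + c := by
  induction c with
  | zero =>
    left
    rw [List.take_zero, run_nil, List.append_nil]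
  | succ c ih =>
    have hc1 : z.take (c + 1) = z.take c ++ [z[c]] := by
      rw [List.take_append_getElem]
    have hO1 := hP.O1 r
    have hlz : (z.take c).length = c := by rw [List.length_take]; omega
    rw [hc1, run_append, run_single]
    rcases ih (by omega) (by omega) with h | ⟨C, h1, h2, h3, h4⟩
    · rw [h]
      by_cases hq : m < (B ++ z.take c ++ [z[c]]).length ∧
        (B ++ z.take c ++ [z[c]]).drop ((B ++ z.take c ++ [z[c]]).length - m) ∈ U
      · right
        rw [step_mark hq.1 hq.2]
        have hl : (B ++ z.take c ++ [z[c]]).length = o r + c + 1 := by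
          rw [List.length_append, List.length_append, hB, hlz]
          rfl
        have hk : HasK o q e m ((B ++ z.take c ++ [z[c]]).length - m) (.L r) := by
          rw [hl]
          constructor <;> omega
        rw [jmp_eq hP hk]
        refine ⟨_, by rw [jump, add_neg_cancel], ?_, ?_, ?_⟩
        · rw [← List.append_assoc]
          exact List.drop_suffix _ _
        · rw [List.length_drop]; omega
        · rw [List.length_drop]; omega
      · left
        rw [step_quiet hq, List.append_assoc]
    · right
      rw [h1]
      have hs : C ++ [z[c]] <:+ B ++ (z.take c ++ [z[c]]) := by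
        obtain ⟨s, hs⟩ := h2
        exact ⟨s, by rw [← List.append_assoc, hs, List.append_assoc]⟩
      have hl : (C ++ [z[c]]).length = C.length + 1 := by
        rw [List.length_append]; rfl
      by_cases hq : m < (C ++ [z[c]]).length ∧
        (C ++ [z[c]]).drop ((C ++ [z[c]]).length - m) ∈ U
      · rw [step_mark hq.1 hq.2, jmp_short hP (by have := hP.O2 r r; omega) (by omega),
          act_zero, add_zero]
        refine ⟨_, rfl, (List.drop_suffix _ _).trans hs, ?_, ?_⟩
        · rw [List.length_drop]; omega
        · rw [List.length_drop]; omega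
      · rw [step_quiet hq]
        exact ⟨_, rfl, hs, by omega, by omega⟩

/-- the state after a junction does not depend on the left side -/
theorem junc_state (hP : Par m q e b t o) {r r' : Rul V K} {B z : List α} {d : ℕ}
    (hB : B.length = o r) (hA : Actv f r)
    (hdl : ∀ j : Fin K, (j : ℕ) < r.1 → dat M t K B j = r.2.1 j)
    (hd : PRd M U m q e b t o r' z d) :
    run M U m (jmp M m q e t o f) (wv r, B) (z.take (d + m)) = (uv f r', win m d z) := by
  obtain ⟨⟨n, h0, h1, h1'⟩, h2, h3, h4, h5, h6⟩ := hd
  have hm := hP.mpos
  have hO2 := hP.O2 r' r'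
  have hO1 := hP.O1 r'
  have hO1r := hP.O1 r
  have hO2r := hP.O2 r r'
  have hsplit : z.take (d + m) = z.take (m - 1) ++ (z.drop (m - 1)).take (d + 1) := by
    have : d + m = (m - 1) + (d + 1) := by omega
    rw [this, List.take_add]
  have hlz : (z.take (m - 1)).length = m - 1 := by rw [List.length_take]; omega
  have hlz' : ((z.drop (m - 1)).take (d + 1)).length = d + 1 := by
    rw [List.length_take, List.length_drop]; omega
  -- the state after the short part
  have key : ∀ (v : V) (C' : List α), 0 < C'.length →
      run M U m (jmp M m q e t o f) (v, C' ++ z.take (m - 1)) ((z.drop (m - 1)).take (d + 1)) =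
        (act M (C' ++ z.take d) v + jmp M m q e t o f (C' ++ z.take (d + m)), win m d z) := by
    intro v C' hC'
    have e : C' ++ z.take (m - 1) ++ (z.drop (m - 1)).take (d + 1) = C' ++ z.take (d + m) := by
      rw [hsplit, List.append_assoc]
    have hl : (C' ++ z.take (d + m)).length = C'.length + (d + m) := by
      rw [List.length_append, List.length_take]; omega
    have hl2 : (C' ++ z.take (d + m)).length - m = C'.length + d := by rw [hl]; omega
    have hw : (C' ++ z.take (d + m)).drop ((C' ++ z.take (d + m)).length - m) = win m d z := by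
      rw [hl2, ← win_last (m := m) (by omega), win_shift, win_take le_rfl]
    have ht : (C' ++ z.take (d + m)).take ((C' ++ z.take (d + m)).length - m) =
        C' ++ z.take d := by
      rw [hl2, List.take_append, List.take_of_length_le (by omega), Nat.add_sub_cancel_left,
        List.take_take, min_eq_left (by omega)]
    rw [run_mark (by
      intro h0
      rw [h0] at hlz'
      simp at hlz'), e, hw, ht]
    · rw [e]
      intro i hi0 hi1 hi2 hi3
      rw [List.length_append, hlz] at hi1
      rw [hl] at hi2
      obtain ⟨i', rfl⟩ : ∃ i', i = C'.length + i' := ⟨i - C'.length, by omega⟩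
      rw [win_shift, win_take (by omega)] at hi3
      exact h5 i' (by omega) hi3
    · rw [e, hl]; omega
    · rw [e, hw]; exact h4
  rw [hsplit, run_append]
  rcases junc_short (M := M) (U := U) (t := t) (f := f) hP.toOffs hB (m - 1) (by omega)
    (by omega : m - 1 ≤ z.length) with h | ⟨C, h, hs, hl1, hl2⟩
  · rw [h, key _ _ (by omega)]
    congr 1
    have hl : (B ++ z.take (d + m)).length = o r + (d + m) := by
      rw [List.length_append, List.length_take, hB]; omega
    have hl2 : (B ++ z.take (d + m)).length - m = o r + d := by rw [hl]; omega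
    have ht : (B ++ z.take (d + m)).take ((B ++ z.take (d + m)).length - m) =
        B ++ z.take d := by
      rw [hl2, List.take_append, List.take_of_length_le (by omega), hB, Nat.add_sub_cancel_left,
        List.take_take, min_eq_left (by omega)]
    by_cases hr : r = r'
    · subst hr
      have hk : HasK o q e m ((B ++ z.take (d + m)).length - m) .G := by
        rw [hl2]
        exact ⟨n, h0, by omega, by omega⟩
      rw [jmp_eq hP.toOffs hk, ht]
      show act M (B ++ z.take d) (wv r) + f (dat M t K (B ++ z.take d)) = uv f r
      have hlen : (B ++ z.take d).length ≤ t K := by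
        have := hP.tK
        rw [List.length_append, List.length_take, hB]
        omega
      have hdat : dat M t K (B ++ z.take d) =
          Function.update r.2.1 r.1 (dat M t K (B ++ z.take d) r.1) := by
        funext j
        by_cases hj : j = r.1
        · subst hj
          rw [Function.update_self]
        · rw [Function.update_of_ne hj]
          have hj' : (j : ℕ) ≠ r.1 := fun h => hj (Fin.ext h)
          rcases lt_or_gt_of_ne hj' with h7 | h7
          · rw [← hdl j h7]
            unfold dat
            rw [seg_left (by rw [hB]; exact hP.tl r j h7)]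
          · exact h6 B hB j h7
      rw [← hh_dat M hP.t0 hP.tmono _ hlen, hdat]
      exact hA _
    · have hk : HasK o q e m ((B ++ z.take (d + m)).length - m) (.F r r') := by
        rw [hl2]
        exact ⟨hr, n, h0, by omega, by omega⟩
      rw [jmp_eq hP.toOffs hk, ht]
      show act M (B ++ z.take d) (wv r) + (uv f r' - act M (B ++ z.take d) (wv r)) = _
      rw [add_sub_cancel]
  · obtain ⟨C', rfl⟩ : ∃ C', C = C' ++ z.take (m - 1) := by
      have h7 : z.take (m - 1) <:+ C := by
        refine List.suffix_of_suffix_length_le (List.suffix_append B _) hs ?_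
        rw [hlz]; omega
      obtain ⟨C', hC'⟩ := h7
      exact ⟨C', hC'.symm⟩
    rw [List.length_append, hlz] at hl1 hl2
    rw [h, key _ _ (by omega), act_zero, zero_add]
    congr 1
    have hl : (C' ++ z.take (d + m)).length = C'.length + (d + m) := by
      rw [List.length_append, List.length_take]; omega
    have hk : HasK o q e m ((C' ++ z.take (d + m)).length - m) (.R r') := by
      rw [hl]
      exact ⟨n, h0, by omega, by omega⟩
    rw [jmp_eq hP.toOffs hk]
    rfl

/-- the block before a cut -/
theorem PLf_block {r : Rul V K} {u : List α} (h : PLf M U m t o f r u) (hm : 0 < m)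
    (ho : m ≤ o r) (x : V) : ∃ v, run M U m (jmp M m q e t o f) (x, []) u =
      (v, u.drop (u.length - o r)) := by
  obtain ⟨h1, h2, h3, h4, h5⟩ := h
  have hl : (u.drop (u.length - o r)).length = o r := by rw [List.length_drop]; omega
  have hWl : ((u.drop (u.length - o r)).take m).length = m := by rw [List.length_take]; omega
  obtain ⟨v, hv⟩ := run_win (M := M) (τ := jmp M m q e t o f) x (u.take (u.length - o r)) _ hm
    hWl h3
  refine ⟨v, ?_⟩
  have h6 := run_block hv hWl (z := (u.drop (u.length - o r)).drop m) (fun i hi h7 => by
    rw [List.take_append_drop] at h7 ⊢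
    exact h4 i hi (by omega))
  rw [List.take_append_drop, List.take_append_drop] at h6
  exact h6

/-- the quiet blocks between two marks -/
def Spc (g : List α) (l : ℕ) : Prop :=
  (∃ n, q ≤ n * q ∧ n * q ≤ l ∧ l ≤ n * q + e) ∧ l ≤ b ∧ g.length = l + m ∧
    win m 0 g ∈ U ∧ win m l g ∈ U ∧ ∀ i, 0 < i → i < l → win m i g ∉ U

theorem sysB (hP : Par m q e b t o) (hf : ∀ (α : Fin K → (V → V)) (y : V), ∃ k, Srv (hh K) k α y f) :
    CS (b + m) (Ef M U m q e t o f) (PLf M U m t o f) (PRf M U m q e b t o f)
      (lamf M o) (Psif M U m q e t o f)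
      {g | ∃ l, Spc (U := U) (m := m) (q := q) (e := e) (b := b) g l} where
  pos := by have := hP.mpos; omega
  plApp r u k h := by
    obtain ⟨h1, h2, h3, h4, h5⟩ := h
    have he : (u ++ k).drop ((u ++ k).length - o r) = k.drop (k.length - o r) := by
      rw [List.length_append, List.drop_append, List.drop_eq_nil_of_le (by omega),
        List.nil_append]
      congr 1
      omega
    unfold PLf
    rw [he]
    exact ⟨h1, by rw [List.length_append]; omega, h3, h4, h5⟩
  lamApp r u k h := by
    obtain ⟨h1, h2, h3, h4, h5⟩ := h
    have he : (u ++ k).drop ((u ++ k).length - o r) = k.drop (k.length - o r) := by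
      rw [List.length_append, List.drop_append, List.drop_eq_nil_of_le (by omega),
        List.nil_append]
      congr 1
      omega
    unfold lamf
    rw [he]
  prApp r k z h := by
    obtain ⟨hA, d, h1, h2, h3, h4, h5, h6⟩ := h
    refine ⟨hA, d, h1, h2, ?_, ?_, ?_, ?_⟩
    · rw [List.length_append]; omega
    · rw [win_append h3]; exact h4
    · intro i hi
      rw [win_append (by omega)]
      exact h5 i hi
    · intro B hB j hj
      rw [List.take_append_of_le_length (by omega)]
      exact h6 B hB j hj
  prLoc r k z h hk := by
    obtain ⟨hA, d, h1, h2, h3, h4, h5, h6⟩ := h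
    have hdk : d + m ≤ k.length := by omega
    refine ⟨hA, d, h1, h2, hdk, ?_, ?_, ?_⟩
    · rw [win_append hdk] at h4; exact h4
    · intro i hi
      have := h5 i hi
      rw [win_append (by omega)] at this
      exact this
    · intro B hB j hj
      have := h6 B hB j hj
      rw [List.take_append_of_le_length (by omega)] at this
      exact this
  junc r r' u z x h1 h2 h3 := by
    obtain ⟨v, hv⟩ := PLf_block (q := q) (e := e) h1 hP.mpos
      (by have := hP.O1 r; omega) x
    obtain ⟨hA', d, hd⟩ := h2
    obtain ⟨hA, hl, hw, hq, hdat⟩ := h1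
    have hBl : (u.drop (u.length - o r)).length = o r := by rw [List.length_drop]; omega
    have h4 := junc_state (U := U) hP hBl hA hdat hd
    have hfst : fst1 U m z = d := fst1_eq hd.2.2.1 hd.2.2.2.1 hd.2.2.2.2.1
    unfold Ef at h3 ⊢
    rw [hv] at h3
    rw [run_append, hv]
    have h5 := (run_linear (M := M) (U := U) (m := m) (τ := jmp M m q e t o f) z v (wv r)
      (u.drop (u.length - o r))).2
    have h6 : vl M (v, u.drop (u.length - o r)) = vl M (wv r, u.drop (u.length - o r)) := h3
    rw [h6, sub_self, act_zero] at h5
    rw [sub_eq_zero.1 h5]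
    have hzz : z = z.take (d + m) ++ z.drop (d + m) := (List.take_append_drop _ _).symm
    unfold Psif
    rw [hfst]
    conv_lhs => rw [hzz, run_append, h4]
  cutIn g hg u x := by
    obtain ⟨l, ⟨n, h0, h1, h1'⟩, h2, h3, h4, h5, h6⟩ := hg
    have hm := hP.mpos
    have hWl : (g.take m).length = m := by rw [List.length_take]; omega
    have hWU : g.take m ∈ U := by rw [win_zero] at h4; exact h4
    obtain ⟨v, hv⟩ := run_win (M := M) (τ := jmp M m q e t o f) x u (g.take m) hm hWl hWU
    obtain ⟨k, hk⟩ := hf (dat M t K (g.take l)) v
    have hor := hP.O1 ((k, dat M t K (g.take l), v) : Rul V K)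
    have hor2 := hP.O2 ((k, dat M t K (g.take l), v) : Rul V K)
      ((k, dat M t K (g.take l), v) : Rul V K)
    set r : Rul V K := (k, dat M t K (g.take l), v) with hr
    have hcl : (g.take (o r)).length = o r := by rw [List.length_take]; omega
    have hcd : (g.take (o r)).drop ((g.take (o r)).length - o r) = g.take (o r) := by
      rw [hcl, Nat.sub_self, List.drop_zero]
    have hgl : g.take l = g.take (o r) ++ (g.drop (o r)).take (l - o r) := by
      have : l = o r + (l - o r) := by omega
      conv_lhs => rw [this, List.take_add]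
    refine ⟨r, g.take (o r), g.drop (o r), List.take_append_drop _ _, ?_, ?_, ?_⟩
    · refine ⟨hk, by rw [hcl], ?_, ?_, ?_⟩
      · rw [hcd, List.take_take, min_eq_left (by omega)]
        exact hWU
      · intro i hi1 hi2
        rw [hcd, win_take (by omega)]
        exact h6 i hi1 (by omega)
      · intro j hj
        rw [hcd]
        show dat M t K (g.take (o r)) j = dat M t K (g.take l) j
        rw [hgl]
        unfold dat
        rw [seg_left (by rw [hcl]; exact hP.tl r j hj)]
    · refine ⟨hk, l - o r, ⟨n, h0, by omega, by omega⟩, by omega, ?_, ?_, ?_, ?_⟩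
      · rw [List.length_drop]; omega
      · rw [win_drop]
        have : o r + (l - o r) = l := by omega
        rw [this]
        exact h5
      · intro i hi
        rw [win_drop]
        exact h6 _ (by omega) (by omega)
      · intro B hB j hj
        show dat M t K (B ++ (g.drop (o r)).take (l - o r)) j = dat M t K (g.take l) j
        rw [hgl]
        unfold dat
        rw [seg_right (B' := g.take (o r)) (by rw [hB, hcl])
          (by rw [hcl]; exact hP.tr r j hj j.2)]
    · unfold Ef lamf
      rw [hcd]
      have h7 := run_block hv hWl (z := (g.take (o r)).drop m) (fun i hi h8 => by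
        have he : g.take m = (g.take (o r)).take m := by
          rw [List.take_take, min_eq_left (by omega)]
        rw [he, List.take_append_drop] at h8 ⊢
        rw [win_take (by omega)]
        exact h6 i hi (by omega))
      have he : g.take m = (g.take (o r)).take m := by
        rw [List.take_take, min_eq_left (by omega)]
      rw [he, List.take_append_drop] at h7
      rw [h7]
      rfl

theorem Ef_act (w : List α) (x : V) :
    Ef M U m q e t o f w x - Ef M U m q e t o f w 0 = act M w x := by
  unfold Ef
  rw [(run_linear w x 0 []).2]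
  unfold vl
  rw [act_nil, act_nil, sub_zero]

end sys

end Vale.Agent.P329.Clock
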