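import Vale.Agent.P329.Clock.Final
import Mathlib.Data.ZMod.Basic

set_option linter.all false

/-!
The clock.
-/

namespace Vale.Agent.P329.Clock

open Vale.Agent.P329 Vale.Agent.P329.Slow Vale.Agent.P329.Mark

section clk

variable {α : Type} {R : ℕ}

/-- the window of length `m` at the position `i` shows `i` modulo `R` -/
def WClk (m : ℕ) (c : List α → ZMod R) (w : List α) : Prop :=
  ∀ i, i + m ≤ w.length → c ((w.drop i).take m) = i

theorem Cls.wclk [Finite α] {P : Set (List α) → Prop} (hP : Cls P) (m : ℕ)
    (c : List α → ZMod R) : P {w : List α | WClk m c w} := by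
  have h2 : P {u : List α | u.length = m + 1 ∧ c (u.drop 1) ≠ c (u.take m) + 1} :=
    hP.finite (finite_of_length (m + 1) fun w hw => hw.1.le)
  have h1 : P {u : List α | u.length = m ∧ c u ≠ 0} :=
    hP.finite (finite_of_length m fun w hw => hw.1.le)
  have h3 := hP.compl (hP.union (hP.cat hP.univ (hP.cat h2 hP.univ)) (hP.cat h1 hP.univ))
  convert h3 using 1
  ext w
  constructor
  · intro hw hn
    rcases hn with ⟨a, -, _, ⟨u, ⟨hu, hne⟩, b, -, rfl⟩, rfl⟩ | ⟨u, ⟨hu, hne⟩, b, -, rfl⟩
    · apply hne
      have e1 := hw a.length (by simp; omega)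
      have e2 := hw (a.length + 1) (by simp; omega)
      rw [List.drop_left, List.take_append_of_le_length (by omega)] at e1
      rw [List.drop_append, List.drop_eq_nil_of_le (by omega), List.nil_append,
        Nat.add_sub_cancel_left, List.drop_append_of_le_length (by omega),
        List.take_append_of_le_length (by rw [List.length_drop]; omega),
        List.take_of_length_le (by rw [List.length_drop]; omega)] at e2
      rw [e2, e1, Nat.cast_add, Nat.cast_one]
    · apply hne
      have e1 := hw 0 (by simp; omega)
      rw [List.drop_zero, List.take_append_of_le_length (by omega),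
        List.take_of_length_le (by omega)] at e1
      rw [e1, Nat.cast_zero]
  · intro hw
    rw [Set.mem_compl_iff, Set.mem_union, not_or] at hw
    obtain ⟨hw2, hw1⟩ := hw
    intro i
    induction i with
    | zero =>
      intro hi
      by_contra hne
      refine hw1 ⟨w.take m, ⟨by rw [List.length_take]; omega, ?_⟩, w.drop m, trivial,
        List.take_append_drop _ _⟩
      rwa [List.drop_zero, Nat.cast_zero] at hne
    | succ i ih =>
      intro hi
      have e1 := ih (by omega)
      by_contra hne
      refine hw2 ⟨w.take i, trivial, (w.drop i).take (m + 1) ++ (w.drop i).drop (m + 1),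
        ⟨(w.drop i).take (m + 1), ⟨?_, ?_⟩, (w.drop i).drop (m + 1), trivial, rfl⟩, ?_⟩
      · rw [List.length_take, List.length_drop]; omega
      · rw [List.take_take, min_eq_left (by omega), e1, List.drop_take, List.drop_drop,
          Nat.add_sub_cancel]
        rw [Nat.cast_add, Nat.cast_one] at hne
        exact hne
      · rw [List.take_append_drop, List.take_append_drop]

theorem WClk.spaced (hR : 0 < R) {m : ℕ} {c : List α → ZMod R} {w : List α} (hw : WClk m c w) :
    Dom {g | Spaced {u | c u = 0} m R 0 g} (2 * R + m) w := by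
  intro u hu hlen
  obtain ⟨p, s, hps⟩ := hu
  set q := p.length with hq
  -- the next position divisible by `R`
  obtain ⟨t, ht, hdvd⟩ : ∃ t < R, R ∣ q + t := by
    refine ⟨(R - q % R) % R, Nat.mod_lt _ hR, ?_⟩
    rcases Nat.eq_zero_or_pos (q % R) with h | h
    · rw [h, Nat.sub_zero, Nat.mod_self, add_zero]
      exact Nat.dvd_of_mod_eq_zero h
    · have h1 := Nat.mod_lt q hR
      rw [Nat.mod_eq_of_lt (by omega)]
      have h2 := Nat.div_add_mod q R
      refine ⟨q / R + 1, ?_⟩
      rw [Nat.mul_add, Nat.mul_one]
      omega
  have hut : u = u.take t ++ ((u.drop t).take (R + m) ++ (u.drop t).drop (R + m)) := by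
    rw [List.take_append_drop, List.take_append_drop]
  have hgl : ((u.drop t).take (R + m)).length = R + m := by
    rw [List.length_take, List.length_drop]; omega
  refine ⟨(u.drop t).take (R + m), ?_, ⟨u.take t, (u.drop t).drop (R + m), ?_⟩⟩
  · refine ⟨R, le_rfl, by rw [Nat.mod_self], hgl, fun i hi => ?_⟩
    have hwl : w.length = q + u.length + s.length := by
      rw [← hps, List.length_append, List.length_append]
    have e1 : (((u.drop t).take (R + m)).drop i).take m = (w.drop (q + (t + i))).take m := by
      have e2 : w.drop q = u ++ s := by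
        rw [← hps, List.append_assoc, hq, List.drop_left]
      rw [List.drop_take, List.take_take, min_eq_left (by omega), List.drop_drop,
        ← List.drop_drop (i := t + i) (j := q), e2, List.drop_append_of_le_length (by omega),
        List.take_append_of_le_length (by rw [List.length_drop]; omega)]
    have e4 := hw (q + (t + i)) (by omega)
    show c _ = 0 ↔ _
    rw [e1, e4]
    have e6 : ((q + (t + i) : ℕ) : ZMod R) = (i : ℕ) := by
      rw [← Nat.add_assoc, Nat.cast_add, (ZMod.natCast_eq_zero_iff (q + t) R).2 hdvd, zero_add]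
    rw [e6, ZMod.natCast_eq_zero_iff]
    constructor
    · rintro ⟨k, rfl⟩
      rcases Nat.eq_zero_or_pos k with h | h
      · left; rw [h, Nat.mul_zero]
      · right
        have h1 : k ≤ 1 := by
          by_contra h2
          have h3 : R * 2 ≤ R * k := Nat.mul_le_mul_left R (by omega)
          omega
        have h2 : k = 1 := le_antisymm h1 h
        rw [h2, Nat.mul_one]
    · rintro (h | h)
      · rw [h]; exact dvd_zero _
      · rw [h]
  · rw [List.append_assoc]
    exact hut.symm

/-- a clock with many values makes every regular language simple -/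
theorem regular_wclk (n : ℕ) : ∃ N : ℕ, 0 < N ∧ ∀ (α : Type) [Finite α]
    (P : Set (List α) → Prop), Cls P → ∀ (A : DFA α (Fin n)) (R m : ℕ), 0 < m → N * m ≤ R →
      ∀ c : List α → ZMod R, P {w : List α | w ∈ A.accepts ∧ WClk m c w} := by
  obtain ⟨N, hN0, hN⟩ := regular_marks n
  refine ⟨N, hN0, fun α _ P hP A R m hm hR c => ?_⟩
  have hR0 : 0 < R := lt_of_lt_of_le (Nat.mul_pos hN0 hm) hR
  have h1 := hN α P hP A {u | c u = 0} m R 0 hm (by rw [zero_add]; exact hR) (2 * R + m)
  have h2 := hP.inter h1 (Cls.wclk hP m c)
  convert h2 using 1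
  ext w
  constructor
  · rintro ⟨hw, hc⟩
    exact ⟨⟨hw, hc.spaced hR0⟩, hc⟩
  · rintro ⟨⟨hw, -⟩, hc⟩
    exact ⟨hw, hc⟩

end clk

end Vale.Agent.P329.Clock
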