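import Vale.Agent.P329.Mark.Core

set_option linter.all false

/-!
Abstract cut systems: one star evaluates a flow which is cut in every good factor.
-/

namespace Vale.Agent.P329.Clock

open Vale.Agent.P329 Vale.Agent.P329.Slow Vale.Agent.P329.Mark

section cut

variable {α V ρ : Type} [AddCommGroup V]

/-- A cut system: `E` evaluates strands, `PL r u` says that a word `u` may end before a cut of kind
`r`, `PR r z` that a word may start after a cut of kind `r`. -/
structure CS (n : ℕ) (E : List α → V → V) (PL PR : ρ → List α → Prop) (lam Psi : ρ → List α → V)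
    (G : Set (List α)) : Prop where
  pos : 0 < n
  plApp : ∀ r u k, PL r k → PL r (u ++ k)
  lamApp : ∀ r u k, PL r k → lam r (u ++ k) = lam r k
  prApp : ∀ r k z, PR r k → PR r (k ++ z)
  prLoc : ∀ r k z, PR r (k ++ z) → n ≤ k.length → PR r k
  junc : ∀ r r' u z x, PL r u → PR r' z → E u x = lam r u → E (u ++ z) x = Psi r' z
  cutIn : ∀ g ∈ G, ∀ u x, ∃ r c d, c ++ d = g ∧ PL r c ∧ PR r d ∧ E (u ++ c) x = lam r c

/-- every factor of length `m` contains a good word -/
def Dom (G : Set (List α)) (m : ℕ) (w : List α) : Prop :=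
  ∀ u : List α, u <:+: w → u.length = m → ∃ g ∈ G, g <:+: u

variable {n : ℕ} {E : List α → V → V} {PL PR : ρ → List α → Prop} {lam Psi : ρ → List α → V}
  {G : Set (List α)}

variable (PL PR lam Psi) in
/-- the words between two cuts -/
def KC (B : ℕ) : Set (List α) :=
  {k | k.length ≤ B ∧ ∃ r' r, PR r' k ∧ PL r k ∧ Psi r' k = lam r k}

variable (E PL lam) in
def PC (B : ℕ) (x : V) : Set (List α) :=
  {p | p.length ≤ B ∧ ∃ r, PL r p ∧ E p x = lam r p}

variable (PR Psi) in
def SC (B : ℕ) (v : V) : Set (List α) :=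
  {z | z.length ≤ B ∧ ∃ r, PR r z ∧ Psi r z = v}

theorem CS.sound_aux (S : CS n E PL PR lam Psi G) {B : ℕ} {x : V} {z : List α}
    (hz : z ∈ kst (KC PL PR lam Psi B)) : ∀ u : List α, (∃ r, PL r u ∧ E u x = lam r u) →
      ∃ r, PL r (u ++ z) ∧ E (u ++ z) x = lam r (u ++ z) := by
  obtain ⟨l, hl, rfl⟩ := hz
  induction l with
  | nil => intro u hu; simpa using hu
  | cons k l ih =>
    rintro u ⟨r, h1, h2⟩
    obtain ⟨-, r', r'', h3, h4, h5⟩ := hl k List.mem_cons_self
    rw [List.flatten_cons, ← List.append_assoc]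
    refine ih (fun v hv => hl v (List.mem_cons_of_mem _ hv)) (u ++ k) ⟨r'', S.plApp _ _ _ h4, ?_⟩
    rw [S.junc r r' u k x h1 h3 h2, h5, S.lamApp _ _ _ h4]

theorem CS.sound (S : CS n E PL PR lam Psi G) {B : ℕ} {x v : V} {w : List α}
    (hw : w ∈ cat (PC E PL lam B x) (cat (kst (KC PL PR lam Psi B)) (SC PR Psi B v))) :
    E w x = v := by
  obtain ⟨p, ⟨-, hp⟩, _, ⟨k, hk, z, ⟨-, i, h1, h2⟩, rfl⟩, rfl⟩ := hw
  obtain ⟨j, h3, h4⟩ := S.sound_aux hk p hp
  rw [← List.append_assoc, S.junc j i _ z x h3 h1 h4, h2]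

theorem Dom.sub {m : ℕ} {w z : List α} (h : Dom G m w) (hz : z <:+: w) : Dom G m z :=
  fun u hu hm => h u (hu.trans hz) hm

theorem CS.cover (S : CS n E PL PR lam Psi G) {m : ℕ} (x : V) (N : ℕ) :
    ∀ (z : List α), z.length < N → ∀ (u : List α) (r r' : ρ), PL r u → PR r' z →
      E u x = lam r u → Dom G m z →
        z ∈ cat (kst (KC PL PR lam Psi (n + m))) (SC PR Psi (n + m) (E (u ++ z) x)) := by
  induction N with
  | zero => intro z hz; omega
  | succ N ih =>
    intro z hz u r r' h1 h2 h3 h4
    by_cases hlen : z.length < n + m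
    · refine ⟨[], ⟨[], by simp, rfl⟩, z, ⟨hlen.le, r', h2, ?_⟩, rfl⟩
      rw [S.junc r r' u z x h1 h2 h3]
    · push Not at hlen
      obtain ⟨g, hg, a, b, hab⟩ := h4 ((z.drop n).take m)
        (((List.take_prefix m _).isInfix).trans (List.drop_suffix n z).isInfix)
        (by rw [List.length_take, List.length_drop]; omega)
      obtain ⟨s, c, d, hcd, h5, h6, h7⟩ := S.cutIn g hg (u ++ (z.take n ++ a)) x
      have hz2 : z = (z.take n ++ a ++ c) ++ (d ++ (b ++ (z.drop n).drop m)) := by
        have e1 : a ++ (c ++ d) ++ b = (z.drop n).take m := by rw [hcd]; exact hab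
        calc z = z.take n ++ ((z.drop n).take m ++ (z.drop n).drop m) := by
              rw [List.take_append_drop, List.take_append_drop]
          _ = _ := by rw [← e1]; simp only [List.append_assoc]
      have hnl : (z.take n).length = n := by rw [List.length_take]; omega
      have hab' := congrArg List.length hab
      rw [List.length_append, List.length_append, List.length_take, List.length_drop,
        min_eq_left (by omega)] at hab'
      have hcd' := congrArg List.length hcd
      rw [List.length_append] at hcd'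
      have hkl : (z.take n ++ a ++ c).length ≤ n + m := by
        rw [List.length_append, List.length_append, hnl]; omega
      have hz3 : (d ++ (b ++ (z.drop n).drop m)).length < N := by
        have := congrArg List.length hz2
        rw [List.length_append, List.length_append (as := z.take n ++ a),
          List.length_append (as := z.take n), hnl] at this
        have := S.pos
        omega
      have h8 : PL s (z.take n ++ a ++ c) := S.plApp _ _ _ h5
      have h9 : PR r' (z.take n ++ a ++ c) := by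
        rw [hz2] at h2
        refine S.prLoc _ _ _ h2 ?_
        rw [List.length_append, List.length_append, hnl]; omega
      have h10 : E (u ++ (z.take n ++ a ++ c)) x = lam s (z.take n ++ a ++ c) := by
        rw [S.lamApp _ _ _ h5, ← h7]; simp only [List.append_assoc]
      have h11 := ih _ hz3 (u ++ (z.take n ++ a ++ c)) s s (S.plApp _ _ _ h8)
        (S.prApp _ _ _ h6) (by rw [h10, S.lamApp _ u _ h8])
        (h4.sub (by
          conv_rhs => rw [hz2]
          exact (List.suffix_append _ _).isInfix))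
      rw [List.append_assoc u, ← hz2] at h11
      obtain ⟨k, hk, z', hz', hkz⟩ := h11
      refine ⟨(z.take n ++ a ++ c) ++ k, kst_cons' ⟨hkl, r', s, h9, h8, ?_⟩ hk, z', hz', ?_⟩
      · rw [← h10, S.junc r r' u _ x h1 h9 h3]
      · rw [List.append_assoc (z.take n ++ a ++ c), hkz, ← hz2]

theorem CS.complete (S : CS n E PL PR lam Psi G) {m : ℕ} {w : List α}
    (hw : Dom G m w) (hm : m ≤ w.length) (x : V) :
    w ∈ cat (PC E PL lam (n + m) x) (cat (kst (KC PL PR lam Psi (n + m)))
      (SC PR Psi (n + m) (E w x))) := by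
  obtain ⟨g, hg, a, b, hab⟩ := hw (w.take m) (List.take_prefix m w).isInfix
    (by rw [List.length_take]; omega)
  obtain ⟨s, c, d, hcd, h5, h6, h7⟩ := S.cutIn g hg a x
  have hz2 : w = (a ++ c) ++ (d ++ (b ++ w.drop m)) := by
    have e1 : a ++ (c ++ d) ++ b = w.take m := by rw [hcd]; exact hab
    calc w = w.take m ++ w.drop m := (List.take_append_drop _ _).symm
      _ = _ := by rw [← e1]; simp only [List.append_assoc]
  have hab' := congrArg List.length hab
  rw [List.length_append, List.length_append, List.length_take, min_eq_left hm] at hab'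
  have hcd' := congrArg List.length hcd
  rw [List.length_append] at hcd'
  have h7' : E (a ++ c) x = lam s (a ++ c) := by rw [h7, S.lamApp _ _ _ h5]
  have h8 := S.cover (m := m) x ((d ++ (b ++ w.drop m)).length + 1) _ (Nat.lt_succ_self _)
    (a ++ c) s s (S.plApp _ _ _ h5) (S.prApp _ _ _ h6) h7'
    (hw.sub (by
      conv_rhs => rw [hz2]
      exact (List.suffix_append _ _).isInfix))
  rw [← hz2] at h8
  refine ⟨a ++ c, ⟨?_, s, S.plApp _ _ _ h5, h7'⟩, _, h8, hz2.symm⟩
  rw [List.length_append]; omega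

theorem Cls.dom [Finite α] {P : Set (List α) → Prop} (hP : Cls P) (G : Set (List α)) (m : ℕ) :
    P {w : List α | Dom G m w} := by
  have hB : P {u : List α | u.length = m ∧ ¬ ∃ g ∈ G, g <:+: u} :=
    hP.finite (finite_of_length m fun w hw => hw.1.le)
  have h1 := hP.compl (hP.cat hP.univ (hP.cat hB hP.univ))
  convert h1 using 1
  ext w
  constructor
  · rintro hw ⟨a, -, _, ⟨u, ⟨hu, hn⟩, t, -, rfl⟩, rfl⟩
    exact hn (hw u ⟨a, t, by simp⟩ hu)
  · intro hw u hu hm
    by_contra hn
    obtain ⟨a, t, rfl⟩ := hu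
    exact hw ⟨a, trivial, u ++ t, ⟨u, ⟨hm, hn⟩, t, trivial, rfl⟩, by simp⟩

theorem CS.cls_val [Finite α] {P : Set (List α) → Prop} (hP : Cls P)
    (S : CS n E PL PR lam Psi G) (m : ℕ) (x v : V) :
    P {w : List α | Dom G m w ∧ E w x = v} := by
  have h1 : P (P329.cat (PC E PL lam (n + m) x)
      (P329.cat (P329.kst (KC PL PR lam Psi (n + m))) (SC PR Psi (n + m) v))) :=
    hP.cat (hP.finite (finite_of_length (n + m) fun w hw => hw.1))
      (hP.cat (hP.kst (finite_of_length (n + m) fun w hw => hw.1))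
        (hP.finite (finite_of_length (n + m) fun w hw => hw.1)))
  have h2 : P {w : List α | w.length < m ∧ Dom G m w ∧ E w x = v} :=
    hP.finite (finite_of_length m fun w hw => hw.1.le)
  have h3 := hP.union (hP.inter (Cls.dom hP G m) h1) h2
  convert h3 using 1
  ext w
  constructor
  · rintro ⟨hs, hv⟩
    by_cases hw : w.length < m
    · exact Or.inr ⟨hw, hs, hv⟩
    · left
      refine ⟨hs, ?_⟩
      have := S.complete hs (by omega) x
      rwa [hv] at this
  · rintro (⟨hs, hw⟩ | ⟨-, hs, hv⟩)
    · exact ⟨hs, S.sound hw⟩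
    · exact ⟨hs, hv⟩

theorem CS.cls_act [Finite α] [Finite V] {P : Set (List α) → Prop} (hP : Cls P)
    (M : α → V →+ V) (S : CS n E PL PR lam Psi G)
    (hE : ∀ w x, E w x - E w 0 = act M w x) (m : ℕ) (x : V)
    (F : Set V) : P {w : List α | Dom G m w ∧ act M w x ∈ F} := by
  have h1 : P (⋃ v : V, ⋃ v' : V, ⋃ _ : v - v' ∈ F,
      ({w : List α | Dom G m w ∧ E w x = v} ∩ {w : List α | Dom G m w ∧ E w 0 = v'})) :=
    hP.iUnion fun v => hP.iUnion fun v' => hP.iUnion_prop fun _ =>
      hP.inter (S.cls_val hP m x v) (S.cls_val hP m 0 v')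
  convert h1 using 1
  ext w
  have h2 := hE w x
  simp only [Set.mem_iUnion]
  constructor
  · rintro ⟨hs, hF⟩
    exact ⟨_, _, by rw [h2]; exact hF, ⟨hs, rfl⟩, ⟨hs, rfl⟩⟩
  · rintro ⟨v, v', hF, ⟨hs, rfl⟩, ⟨-, rfl⟩⟩
    rw [h2] at hF
    exact ⟨hs, hF⟩

end cut

end Vale.Agent.P329.Clock
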