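import Mathlib.Data.Set.Basic
import Mathlib.Data.List.Basic
import Mathlib.Data.ZMod.Basic

namespace Vale.Agent.P329.Clock

/-- `g` is a block: its length is `l + m`, where `l ≥ q` is a multiple of `q` up to an error of at
most `e` (the remainder of `l` modulo `q` is at most `e`), and among its windows of length `m` at
the positions `0, ..., l` exactly the first one and the last one belong to `U`. -/
def Spaced {α : Type} (U : Set (List α)) (m q e : ℕ) (g : List α) : Prop :=
  ∃ l, q ≤ l ∧ l % q ≤ e ∧ g.length = l + m ∧
    ∀ i ≤ l, (g.drop i).take m ∈ U ↔ i = 0 ∨ i = l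

/-- Products of words `u` taken from `F i`, where `i` is the position modulo `R` at which `u`
starts, if the whole word starts at the position `i`. -/
inductive CStar {α : Type} {R : ℕ} (F : ZMod R → Set (List α)) : ZMod R → List α → Prop
  | nil (i : ZMod R) : CStar F i []
  | cons (i : ZMod R) (u w : List α) :
      u ∈ F i → CStar F (i + (u.length : ZMod R)) w → CStar F i (u ++ w)

end Vale.Agent.P329.Clock
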