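import Vale.Agent.P329.Clock.Block
import Vale.Agent.P329.Mark.Long
import Vale.Agent.P329.Clock.Defs

set_option linter.all false

/-!
Clocked markers: parameters, regular languages, and the clock.
-/

namespace Vale.Agent.P329.Clock

open Vale.Agent.P329 Vale.Agent.P329.Slow Vale.Agent.P329.Mark

section arith

theorem two_pow_sum_lt {i j k l : ℕ} (h : 2 ^ i + 2 ^ j = 2 ^ k + 2 ^ l) (hij : i ≤ j)
    (hkl : k ≤ l) : j ≤ l := by
  by_contra hlt
  push Not at hlt
  have h1 : 2 ^ k ≤ 2 ^ l := Nat.pow_le_pow_right (by norm_num) hkl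
  have h2 : 2 ^ (l + 1) ≤ 2 ^ j := Nat.pow_le_pow_right (by norm_num) hlt
  have h3 : 0 < 2 ^ i := by positivity
  rw [pow_succ] at h2
  omega

theorem two_pow_sidon' {i j k l : ℕ} (h : 2 ^ i + 2 ^ j = 2 ^ k + 2 ^ l) (hij : i ≤ j)
    (hkl : k ≤ l) : i = k ∧ j = l := by
  have h1 : j = l := le_antisymm (two_pow_sum_lt h hij hkl) (two_pow_sum_lt h.symm hkl hij)
  subst h1
  exact ⟨Nat.pow_right_injective le_rfl (Nat.add_right_cancel h), rfl⟩

theorem two_pow_sidon {i j k l : ℕ} (h : 2 ^ i + 2 ^ j = 2 ^ k + 2 ^ l) :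
    (i = k ∧ j = l) ∨ (i = l ∧ j = k) := by
  rcases le_total i j with h1 | h1 <;> rcases le_total k l with h2 | h2
  · exact Or.inl (two_pow_sidon' h h1 h2)
  · rw [add_comm (2 ^ k)] at h
    exact Or.inr (two_pow_sidon' h h1 h2)
  · rw [add_comm (2 ^ i)] at h
    have := two_pow_sidon' h h1 h2
    exact Or.inr ⟨this.2, this.1⟩
  · rw [add_comm (2 ^ i), add_comm (2 ^ k)] at h
    have := two_pow_sidon' h h1 h2
    exact Or.inl ⟨this.2, this.1⟩

theorem mul_gap {u p q : ℕ} (h : u * p < u * q + u) : p ≤ q := by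
  by_contra hlt
  push Not at hlt
  have h1 : u * (q + 1) ≤ u * p := Nat.mul_le_mul_left u hlt
  rw [Nat.mul_add, Nat.mul_one] at h1
  omega

end arith

section par

variable {V : Type} [Fintype V] {K : ℕ}

/-- the number of data -/
noncomputable def qn (V : Type) (K : ℕ) [Fintype V] : ℕ := by
  classical
  exact Fintype.card ((Fin K → (V → V)) × V)

/-- enumeration of the data -/
noncomputable def en (K : ℕ) (x : (Fin K → (V → V)) × V) : ℕ := by
  classical
  exact ((Fintype.equivFin ((Fin K → (V → V)) × V)) x : ℕ)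

theorem en_lt (x : (Fin K → (V → V)) × V) : en K x < qn V K := by
  classical
  exact (Fintype.equivFin ((Fin K → (V → V)) × V) x).2

theorem en_inj {x y : (Fin K → (V → V)) × V} (h : en K x = en K y) : x = y := by
  classical
  exact (Fintype.equivFin ((Fin K → (V → V)) × V)).injective (Fin.ext h)

noncomputable def idx (r : Rul V K) : ℕ := qn V K * r.1 + en K r.2

theorem idx_inj {r s : Rul V K} (h : idx r = idx s) : r = s := by
  obtain ⟨k, x⟩ := r
  obtain ⟨l, y⟩ := s
  have hx := en_lt x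
  have hy := en_lt y
  unfold idx at h
  dsimp only at h
  have h0 : 0 < qn V K := by omega
  have h1 : (k : ℕ) = l := by
    have e1 : (qn V K * k + en K x) / qn V K = k := by
      rw [Nat.mul_add_div h0, Nat.div_eq_of_lt hx, add_zero]
    have e2 : (qn V K * l + en K y) / qn V K = l := by
      rw [Nat.mul_add_div h0, Nat.div_eq_of_lt hy, add_zero]
    rw [← e1, h, e2]
  have h2 : en K x = en K y := by rw [h1] at h; omega
  rw [Fin.ext h1, en_inj h2]

theorem idx_lt (r : Rul V K) : idx r < qn V K * K := by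
  obtain ⟨k, x⟩ := r
  have hx := en_lt x
  unfold idx
  dsimp only
  have h1 : qn V K * (k + 1) ≤ qn V K * K := Nat.mul_le_mul_left _ k.2
  rw [Nat.mul_add, Nat.mul_one] at h1
  omega

/-- the offsets -/
noncomputable def off (u : ℕ) (r : Rul V K) : ℕ := u * (2 ^ (qn V K * K + 1) + 2 ^ idx r)

/-- the boundaries of the segments -/
noncomputable def bd (V : Type) [Fintype V] (K u b : ℕ) (j : ℕ) : ℕ :=
  if j = 0 then 0 else if j < K then u * (2 ^ (qn V K * K + 1) + 2 ^ (qn V K * j)) else b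

theorem offs {q e m : ℕ} (hm : 0 < m) (ha : 2 ^ (qn V K * K + 3) * (e + m) ≤ q) :
    Offs (off (V := V) (K := K) (e + m)) q e m := by
  set R := qn V K * K with hR
  set u := e + m with hu
  have hlt : ∀ r : Rul V K, 2 * 2 ^ idx r ≤ 2 ^ R := by
    intro r
    have h1 : 2 ^ (idx r + 1) ≤ 2 ^ R := Nat.pow_le_pow_right (by norm_num) (idx_lt r)
    rw [pow_succ] at h1
    omega
  have hpos : ∀ r : Rul V K, 0 < 2 ^ idx r := fun r => by positivity
  have e1 : 2 ^ (R + 1) = 2 * 2 ^ R := by rw [pow_succ, mul_comm]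
  have e3 : 2 ^ (R + 3) = 8 * 2 ^ R := by rw [pow_add, mul_comm]; norm_num
  have ho : ∀ r : Rul V K, off u r = 2 * (u * 2 ^ R) + u * 2 ^ idx r := by
    intro r
    unfold off
    rw [← hR, e1]
    ring
  have hX : ∀ r : Rul V K, 2 * (u * 2 ^ idx r) ≤ u * 2 ^ R := by
    intro r
    have h1 := Nat.mul_le_mul_left u (hlt r)
    calc 2 * (u * 2 ^ idx r) = u * (2 * 2 ^ idx r) := by ring
      _ ≤ _ := h1
  have hXu : ∀ r : Rul V K, u ≤ u * 2 ^ idx r := fun r => Nat.le_mul_of_pos_right _ (hpos r)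
  have haa : 8 * (u * 2 ^ R) ≤ q := by
    calc 8 * (u * 2 ^ R) = 2 ^ (R + 3) * u := by rw [e3]; ring
      _ ≤ q := ha
  have hRu : u ≤ u * 2 ^ R := Nat.le_mul_of_pos_right _ (by positivity)
  refine ⟨hm, ?_, ?_, ?_, ?_, ?_, ?_⟩
  · intro r
    have := ho r
    omega
  · intro r s
    have := ho r
    have := ho s
    have := hX r
    have := hX s
    omega
  · intro r
    have := ho r
    omega
  · intro r s r'
    have := ho r
    have := ho s
    have := ho r'
    have := hX r'
    have := hXu r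
    omega
  · intro r s hrs
    have h1 : idx r ≠ idx s := fun h => hrs (idx_inj h)
    have h2 := ho r
    have h3 := ho s
    rcases lt_or_gt_of_ne h1 with h4 | h4
    · left
      have h5 : 2 ^ (idx r + 1) ≤ 2 ^ idx s := Nat.pow_le_pow_right (by norm_num) h4
      rw [pow_succ] at h5
      have h6 := hpos r
      have h7 : u * (2 ^ idx r + 1) ≤ u * 2 ^ idx s := Nat.mul_le_mul_left u (by omega)
      rw [Nat.mul_add, Nat.mul_one] at h7
      omega
    · right
      have h5 : 2 ^ (idx s + 1) ≤ 2 ^ idx r := Nat.pow_le_pow_right (by norm_num) h4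
      rw [pow_succ] at h5
      have h6 := hpos s
      have h7 : u * (2 ^ idx s + 1) ≤ u * 2 ^ idx r := Nat.mul_le_mul_left u (by omega)
      rw [Nat.mul_add, Nat.mul_one] at h7
      omega
  · intro r r' s s' h1 h2
    have h3 := ho r
    have h4 := ho r'
    have h5 := ho s
    have h6 := ho s'
    have h7 : 2 ^ idx r + 2 ^ idx s' ≤ 2 ^ idx r' + 2 ^ idx s := by
      refine mul_gap (u := u) ?_
      rw [Nat.mul_add, Nat.mul_add]
      omega
    have h8 : 2 ^ idx r' + 2 ^ idx s ≤ 2 ^ idx r + 2 ^ idx s' := by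
      refine mul_gap (u := u) ?_
      rw [Nat.mul_add, Nat.mul_add]
      omega
    rcases two_pow_sidon (le_antisymm h7 h8) with ⟨h9, h10⟩ | ⟨h9, h10⟩
    · exact Or.inl ⟨idx_inj h9, (idx_inj h10).symm⟩
    · exact Or.inr ⟨idx_inj h9, (idx_inj h10).symm⟩

theorem par (hK : 0 < K) {q e b m : ℕ} (hm : 0 < m) (hqb : q ≤ b)
    (ha : 2 ^ (qn V K * K + 3) * (e + m) ≤ q) :
    Par (K := K) (V := V) m q e b (bd V K (e + m) b) (off (e + m)) where
  toOffs := offs hm ha
  t0 := by unfold bd; rw [if_pos rfl]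
  tmono j hj := by
    unfold bd
    by_cases h0 : j = 0
    · rw [if_pos h0]; exact Nat.zero_le _
    · rw [if_neg h0, if_pos hj, if_neg (Nat.succ_ne_zero j)]
      by_cases h1 : j + 1 < K
      · rw [if_pos h1]
        refine Nat.mul_le_mul_left _ (Nat.add_le_add_left ?_ _)
        exact Nat.pow_le_pow_right (by norm_num) (Nat.mul_le_mul_left _ (Nat.le_succ j))
      · rw [if_neg h1]
        have h2 : 2 ^ (qn V K * j) ≤ 2 ^ (qn V K * K) :=
          Nat.pow_le_pow_right (by norm_num) (Nat.mul_le_mul_left _ hj.le)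
        have e1 : 2 ^ (qn V K * K + 1) = 2 * 2 ^ (qn V K * K) := by rw [pow_succ, mul_comm]
        have e3 : 2 ^ (qn V K * K + 3) = 8 * 2 ^ (qn V K * K) := by
          rw [pow_add, mul_comm]; norm_num
        have h3 : (e + m) * (2 ^ (qn V K * K + 1) + 2 ^ (qn V K * j)) ≤
            2 ^ (qn V K * K + 3) * (e + m) := by
          rw [mul_comm]
          refine Nat.mul_le_mul_right _ ?_
          omega
        omega
  tK := by unfold bd; rw [if_neg hK.ne', if_neg (lt_irrefl K)]
  tl r j hj := by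
    have h1 := r.1.2
    unfold bd off
    rw [if_neg (Nat.succ_ne_zero j), if_pos (by omega)]
    refine Nat.mul_le_mul_left _ (Nat.add_le_add_left ?_ _)
    refine Nat.pow_le_pow_right (by norm_num) ?_
    unfold idx
    exact (Nat.mul_le_mul_left _ hj).trans (Nat.le_add_right _ _)
  tr r j hj hjK := by
    unfold bd off
    rw [if_neg (by omega), if_pos hjK]
    refine Nat.mul_le_mul_left _ (Nat.add_le_add_left ?_ _)
    refine Nat.pow_le_pow_right (by norm_num) ?_
    unfold idx
    have h1 : qn V K * (r.1 + 1) ≤ qn V K * j := Nat.mul_le_mul_left _ hj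
    rw [Nat.mul_add, Nat.mul_one] at h1
    have := en_lt r.2
    omega

end par

theorem Spaced.spc {α : Type} {U : Set (List α)} {m q e C : ℕ} {g : List α} (hq : 0 < q)
    (h : Spaced U m q e g) (hC : g.length ≤ C) :
    ∃ l, Spc (U := U) (m := m) (q := q) (e := e) (b := C + q) g l := by
  obtain ⟨l, h1, h2, h3, h4⟩ := h
  refine ⟨l, ⟨l / q, ?_, ?_, ?_⟩, by omega, h3, (h4 0 (Nat.zero_le _)).2 (Or.inl rfl),
    (h4 l le_rfl).2 (Or.inr rfl), ?_⟩
  · exact Nat.le_mul_of_pos_left q (Nat.div_pos h1 hq)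
  · exact Nat.div_mul_le_self l q
  · have h5 := Nat.div_add_mod l q
    rw [mul_comm] at h5
    omega
  · intro i hi hi2 hi3
    rcases (h4 i hi2.le).1 hi3 with h5 | h5 <;> omega

/-- evaluation of linear actions -/
theorem cls_marks (V : Type) [Finite V] [AddCommGroup V] : ∃ N : ℕ, 0 < N ∧
    ∀ (α : Type) [Finite α] (P : Set (List α) → Prop), Cls P →
    ∀ (M : α → V →+ V) (U : Set (List α)) (m q e : ℕ), 0 < m → N * (e + m) ≤ q →
      ∀ (C : ℕ) (x : V) (F : Set V),
        P {w : List α | Dom {g | Spaced U m q e g} C w ∧ act M w x ∈ F} := by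
  classical
  have hV : Fintype V := Fintype.ofFinite V
  obtain ⟨K, hK, hL⟩ := lines V (V → V)
  obtain ⟨f, hf⟩ := hL (hh K)
  refine ⟨2 ^ (qn V K * K + 3), by positivity, fun α _ P hP M U m q e hm ha C x F => ?_⟩
  have hq : 0 < q := by
    have h1 : 0 < 2 ^ (qn V K * K + 3) * (e + m) := Nat.mul_pos (by positivity) (by omega)
    omega
  have hPar := par (V := V) hK (b := C + q) hm (by omega) ha
  have S := sysB (M := M) (U := U) hPar hf
  have S' : CS (C + q + m) (Ef M U m q e (bd V K (e + m) (C + q)) (off (e + m)) f)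
      (PLf M U m (bd V K (e + m) (C + q)) (off (e + m)) f)
      (PRf M U m q e (C + q) (bd V K (e + m) (C + q)) (off (e + m)) f)
      (lamf M (off (e + m))) (Psif M U m q e (bd V K (e + m) (C + q)) (off (e + m)) f)
      {g | Spaced U m q e g ∧ g.length ≤ C} :=
    { S with cutIn := fun g hg => S.cutIn g (Spaced.spc hq hg.1 hg.2) }
  have h1 := S'.cls_act hP M (Ef_act) C x F
  convert h1 using 1
  ext w
  have h2 : Dom {g | Spaced U m q e g} C w ↔ Dom {g | Spaced U m q e g ∧ g.length ≤ C} C w := by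
    constructor
    · intro h u hu hl
      obtain ⟨g, hg, hgu⟩ := h u hu hl
      exact ⟨g, ⟨hg, hl ▸ hgu.length_le⟩, hgu⟩
    · intro h u hu hl
      obtain ⟨g, hg, hgu⟩ := h u hu hl
      exact ⟨g, hg.1, hgu⟩
  show _ ∧ _ ↔ _ ∧ _
  rw [h2]

/-- regular languages on words with marks at nearly prescribed distances -/
theorem regular_marks (n : ℕ) : ∃ N : ℕ, 0 < N ∧ ∀ (α : Type) [Finite α]
    (P : Set (List α) → Prop), Cls P → ∀ (A : DFA α (Fin n))
    (U : Set (List α)) (m q e : ℕ), 0 < m → N * (e + m) ≤ q → ∀ C : ℕ,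
      P {w : List α | w ∈ A.accepts ∧ Dom {g | Spaced U m q e g} C w} := by
  obtain ⟨N, hN0, hN⟩ := cls_marks (Fin (Fintype.card (Fin n)) → ZMod 2)
  refine ⟨N, hN0, fun α _ P hP A U m q e hm ha C => ?_⟩
  exact dfa_transfer (Q := {w | Dom {g | Spaced U m q e g} C w}) (P := P) A
    fun M x F => hN α P hP M U m q e hm ha C x F

end Vale.Agent.P329.Clock
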