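import Mathlib.Data.Fintype.BigOperators
import Mathlib.Data.Fintype.Pi
import Mathlib.Algebra.Order.BigOperators.Group.Finset
import Mathlib.Data.Real.Basic
import Mathlib.Analysis.SpecificLimits.Normed
import Mathlib.Tactic

set_option linter.all false

/-!
A counting version of the local lemma, and the lines lemma.
-/

namespace Vale.Agent.P329.Clock

open Classical

section lll

variable {P V : Type} [Fintype P] [Fintype V]

/-- the event depends only on the coordinates in `S` -/
def Dep (S : Set P) (A : (P → V) → Prop) : Prop :=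
  ∀ f g : P → V, (∀ p ∈ S, f p = g p) → (A f ↔ A g)

/-- number of functions in the event -/
noncomputable def nb (A : (P → V) → Prop) : ℝ := ((Finset.univ.filter A).card : ℝ)

theorem nb_eq (A : (P → V) → Prop) [DecidablePred A] : nb A = ((Finset.univ.filter A).card : ℝ) := by
  unfold nb
  congr

theorem nb_nonneg (A : (P → V) → Prop) : 0 ≤ nb A := Nat.cast_nonneg _

theorem nb_mono {A B : (P → V) → Prop} (h : ∀ f, A f → B f) : nb A ≤ nb B := by
  unfold nb
  exact_mod_cast Finset.card_le_card (fun f hf => by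
    simp only [Finset.mem_filter, Finset.mem_univ, true_and] at hf ⊢; exact h f hf)

theorem nb_congr {A B : (P → V) → Prop} (h : ∀ f, A f ↔ B f) : nb A = nb B :=
  le_antisymm (nb_mono fun f => (h f).1) (nb_mono fun f => (h f).2)

theorem nb_exists {A : (P → V) → Prop} (h : 0 < nb A) : ∃ f, A f := by
  unfold nb at h
  obtain ⟨f, hf⟩ := Finset.card_pos.1 (Nat.cast_pos.1 h)
  exact ⟨f, (Finset.mem_filter.1 hf).2⟩

theorem nb_split (A B : (P → V) → Prop) :
    nb A = nb (fun f => A f ∧ B f) + nb (fun f => A f ∧ ¬ B f) := by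
  unfold nb
  have h := Finset.card_filter_add_card_filter_not (s := Finset.univ.filter A) B
  rw [Finset.filter_filter, Finset.filter_filter] at h
  rw [← Nat.cast_add]
  congr 1
  convert h.symm

theorem indep {S T : Set P} {A B : (P → V) → Prop} (hA : Dep S A) (hB : Dep T B)
    (h : Disjoint S T) :
    nb (fun f => A f ∧ B f) * nb (fun _ : P → V => True) = nb A * nb B := by
  unfold nb
  rw [← Nat.cast_mul, ← Nat.cast_mul, ← Finset.card_product, ← Finset.card_product]
  congr 1
  refine Finset.card_nbij'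
    (fun x => ((fun p => if p ∈ S then x.1 p else x.2 p), (fun p => if p ∈ S then x.2 p else x.1 p)))
    (fun x => ((fun p => if p ∈ S then x.1 p else x.2 p), (fun p => if p ∈ S then x.2 p else x.1 p)))
    ?_ ?_ ?_ ?_
  · rintro ⟨f, g⟩ hx
    simp only [Finset.coe_product, Finset.coe_filter, Finset.mem_univ, true_and, Set.mem_prod,
      Set.mem_setOf_eq] at hx ⊢
    refine ⟨(hA _ f ?_).2 hx.1.1, (hB _ f ?_).2 hx.1.2⟩
    · intro p hp; simp [hp]
    · intro p hp
      have : p ∉ S := fun h' => Set.disjoint_left.1 h h' hp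
      simp [this]
  · rintro ⟨f, g⟩ hx
    simp only [Finset.coe_product, Finset.coe_filter, Finset.mem_univ, true_and, Set.mem_prod,
      Set.mem_setOf_eq] at hx ⊢
    refine ⟨⟨(hA _ f ?_).2 hx.1, (hB _ g ?_).2 hx.2⟩, trivial⟩
    · intro p hp; simp [hp]
    · intro p hp
      have : p ∉ S := fun h' => Set.disjoint_left.1 h h' hp
      simp [this]
  · rintro ⟨f, g⟩ _
    simp only [Prod.mk.injEq]
    constructor <;> funext p <;> by_cases hp : p ∈ S <;> simp [hp]
  · rintro ⟨f, g⟩ _
    simp only [Prod.mk.injEq]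
    constructor <;> funext p <;> by_cases hp : p ∈ S <;> simp [hp]

theorem Dep.not {S : Set P} {A : (P → V) → Prop} (h : Dep S A) : Dep S (fun f => ¬ A f) :=
  fun f g hfg => not_congr (h f g hfg)

theorem Dep.mono {S T : Set P} {A : (P → V) → Prop} (h : Dep S A) (hST : S ⊆ T) : Dep T A :=
  fun f g hfg => h f g fun p hp => hfg p (hST hp)

theorem Dep.and {S T : Set P} {A B : (P → V) → Prop} (h : Dep S A) (h' : Dep T B) :
    Dep (S ∪ T) (fun f => A f ∧ B f) :=
  fun f g hfg => and_congr (h f g fun p hp => hfg p (Or.inl hp)) (h' f g fun p hp => hfg p (Or.inr hp))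

theorem Dep.ball {ι : Type} {S : ι → Set P} {A : ι → (P → V) → Prop} (T : Finset ι)
    (h : ∀ i ∈ T, Dep (S i) (A i)) : Dep (⋃ i ∈ T, S i) (fun f => ∀ i ∈ T, A i f) := by
  intro f g hfg
  refine forall₂_congr fun i hi => h i hi f g fun p hp => hfg p ?_
  simp only [Set.mem_iUnion]
  exact ⟨i, hi, hp⟩

/-- the local lemma -/
theorem local_lemma [Nonempty V] {ι : Type} [Fintype ι] (S : ι → Set P)
    (B : ι → (P → V) → Prop) (hB : ∀ i, Dep (S i) (B i)) (d : ℕ) (q : ℝ) (hq : 0 ≤ q)
    (hd : ∀ i, (Finset.univ.filter (fun j => ¬ Disjoint (S i) (S j))).card ≤ d)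
    (hq1 : ∀ i, nb (B i) ≤ q * nb (fun _ : P → V => True)) (hqd : 4 * d * q ≤ 1) (hq2 : 4 * q ≤ 1) :
    ∃ f : P → V, ∀ i, ¬ B i f := by
  have hΩ : 0 < nb (fun _ : P → V => True) := by
    unfold nb
    exact Nat.cast_pos.2 (Finset.card_pos.2 ⟨fun _ => Classical.arbitrary V, by simp⟩)
  have key : ∀ n : ℕ, ∀ T : Finset ι, T.card ≤ n → ∀ i,
      nb (fun f => B i f ∧ ∀ j ∈ T, ¬ B j f) ≤ 2 * q * nb (fun f => ∀ j ∈ T, ¬ B j f) := by
    intro n
    induction n with
    | zero =>
      intro T hT i
      have hT0 : T = ∅ := Finset.card_eq_zero.1 (Nat.le_zero.1 hT)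
      subst hT0
      have e1 : nb (fun f => B i f ∧ ∀ j ∈ (∅ : Finset ι), ¬ B j f) = nb (B i) :=
        nb_congr fun f => by simp
      have e2 : nb (fun f : P → V => ∀ j ∈ (∅ : Finset ι), ¬ B j f) = nb (fun _ : P → V => True) :=
        nb_congr fun f => by simp
      rw [e1, e2]
      nlinarith [hq1 i, mul_nonneg hq hΩ.le]
    | succ n ih =>
      intro T hT i
      set T1 := T.filter (fun j => ¬ Disjoint (S i) (S j)) with hT1
      set T2 := T.filter (fun j => Disjoint (S i) (S j)) with hT2
      have hT12 : ∀ j ∈ T, j ∈ T1 ∨ j ∈ T2 := by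
        intro j hj
        by_cases h : Disjoint (S i) (S j)
        · right; rw [hT2, Finset.mem_filter]; exact ⟨hj, h⟩
        · left; rw [hT1, Finset.mem_filter]; exact ⟨hj, h⟩
      have hT1s : T1 ⊆ T := Finset.filter_subset _ _
      have hT2s : T2 ⊆ T := Finset.filter_subset _ _
      have hsum : T1.card + T2.card = T.card := by
        rw [hT1, hT2, add_comm]
        exact Finset.card_filter_add_card_filter_not (s := T) (fun j => Disjoint (S i) (S j))
      -- independence
      have hind : nb (fun f => B i f ∧ ∀ j ∈ T2, ¬ B j f) ≤ q * nb (fun f => ∀ j ∈ T2, ¬ B j f) := by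
        have h1 : Dep (⋃ j ∈ T2, S j) (fun f => ∀ j ∈ T2, ¬ B j f) :=
          Dep.ball T2 (fun j _ => (hB j).not)
        have h2 : Disjoint (S i) (⋃ j ∈ T2, S j) := by
          rw [Set.disjoint_iUnion₂_right]
          intro j hj
          exact (Finset.mem_filter.1 hj).2
        have h3 := indep (hB i) h1 h2
        have h4 : nb (fun f => B i f ∧ ∀ j ∈ T2, ¬ B j f) * nb (fun _ : P → V => True) ≤
            (q * nb (fun f => ∀ j ∈ T2, ¬ B j f)) * nb (fun _ : P → V => True) := by
          rw [h3]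
          have := mul_le_mul_of_nonneg_right (hq1 i) (nb_nonneg (fun f => ∀ j ∈ T2, ¬ B j f))
          linarith [this]
        exact le_of_mul_le_mul_right h4 hΩ
      have hle : nb (fun f => B i f ∧ ∀ j ∈ T, ¬ B j f) ≤ nb (fun f => B i f ∧ ∀ j ∈ T2, ¬ B j f) :=
        nb_mono fun f hf => ⟨hf.1, fun j hj => hf.2 j (hT2s hj)⟩
      by_cases hc : T1.card = 0
      · have hT1e : T1 = ∅ := Finset.card_eq_zero.1 hc
        have e : nb (fun f => ∀ j ∈ T2, ¬ B j f) = nb (fun f => ∀ j ∈ T, ¬ B j f) := by
          refine nb_congr fun f => ⟨fun h j hj => ?_, fun h j hj => h j (hT2s hj)⟩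
          rcases hT12 j hj with h' | h'
          · rw [hT1e] at h'; exact absurd h' (Finset.notMem_empty j)
          · exact h j h'
        rw [e] at hind
        nlinarith [nb_nonneg (fun f => ∀ j ∈ T, ¬ B j f), hle, hind]
      · have hT2c : T2.card ≤ n := by omega
        -- lower bound
        have hlow : ∀ U : Finset ι, U ⊆ T1 →
            nb (fun f => ∀ j ∈ T2, ¬ B j f) * (1 - 2 * q * U.card) ≤
              nb (fun f => (∀ j ∈ T2, ¬ B j f) ∧ ∀ j ∈ U, ¬ B j f) := by
          intro U
          induction U using Finset.induction_on with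
          | empty =>
            intro _
            have : nb (fun f => (∀ j ∈ T2, ¬ B j f) ∧ ∀ j ∈ (∅ : Finset ι), ¬ B j f) =
              nb (fun f => ∀ j ∈ T2, ¬ B j f) := nb_congr fun f => by simp
            rw [this]; simp
          | insert a U ha ih2 =>
            intro hU
            have h1 := ih2 (fun x hx => hU (Finset.mem_insert_of_mem hx))
            have h2 := nb_split (fun f => (∀ j ∈ T2, ¬ B j f) ∧ ∀ j ∈ U, ¬ B j f) (B a)
            have h3 : nb (fun f => ((∀ j ∈ T2, ¬ B j f) ∧ ∀ j ∈ U, ¬ B j f) ∧ B a f) ≤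
                nb (fun f => B a f ∧ ∀ j ∈ T2, ¬ B j f) := nb_mono fun f hf => ⟨hf.2, hf.1.1⟩
            have h4 := ih T2 hT2c a
            have h5 : nb (fun f => ((∀ j ∈ T2, ¬ B j f) ∧ ∀ j ∈ U, ¬ B j f) ∧ ¬ B a f) =
                nb (fun f => (∀ j ∈ T2, ¬ B j f) ∧ ∀ j ∈ insert a U, ¬ B j f) := by
              refine nb_congr fun f => ?_
              simp only [Finset.mem_insert, forall_eq_or_imp]
              tauto
            rw [Finset.card_insert_of_notMem ha, ← h5]
            push_cast
            nlinarith [h1, h2, h3, h4]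
        have h6 := hlow T1 (Finset.Subset.refl _)
        have h7 : nb (fun f => (∀ j ∈ T2, ¬ B j f) ∧ ∀ j ∈ T1, ¬ B j f) =
            nb (fun f => ∀ j ∈ T, ¬ B j f) := by
          refine nb_congr fun f => ⟨fun h j hj => ?_, fun h => ⟨fun j hj => h j (hT2s hj),
            fun j hj => h j (hT1s hj)⟩⟩
          rcases hT12 j hj with h' | h'
          · exact h.2 j h'
          · exact h.1 j h'
        rw [h7] at h6
        have h8 : (T1.card : ℝ) ≤ d := by
          have : T1.card ≤ d := le_trans (Finset.card_le_card (by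
            intro j hj
            rw [hT1, Finset.mem_filter] at hj
            rw [Finset.mem_filter]
            exact ⟨Finset.mem_univ _, hj.2⟩)) (hd i)
          exact_mod_cast this
        have h9 : (1 : ℝ) / 2 ≤ 1 - 2 * q * T1.card := by
          have : q * T1.card ≤ q * d := mul_le_mul_of_nonneg_left h8 hq
          linarith [this, hqd]
        have h10 : nb (fun f => ∀ j ∈ T2, ¬ B j f) * (1 / 2) ≤ nb (fun f => ∀ j ∈ T, ¬ B j f) :=
          le_trans (mul_le_mul_of_nonneg_left h9 (nb_nonneg _)) h6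
        have h11 := mul_le_mul_of_nonneg_left h10 hq
        linarith [hle, hind, h11]
  have pos : ∀ T : Finset ι, 0 < nb (fun f => ∀ j ∈ T, ¬ B j f) := by
    intro T
    induction T using Finset.induction_on with
    | empty =>
      have : nb (fun f : P → V => ∀ j ∈ (∅ : Finset ι), ¬ B j f) = nb (fun _ : P → V => True) :=
        nb_congr fun f => by simp
      rw [this]; exact hΩ
    | insert a T ha ih =>
      have h2 := nb_split (fun f => ∀ j ∈ T, ¬ B j f) (B a)
      have h4 := key T.card T le_rfl a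
      have h3 : nb (fun f => (∀ j ∈ T, ¬ B j f) ∧ B a f) = nb (fun f => B a f ∧ ∀ j ∈ T, ¬ B j f) :=
        nb_congr fun f => and_comm
      have h5 : nb (fun f => (∀ j ∈ T, ¬ B j f) ∧ ¬ B a f) =
          nb (fun f => ∀ j ∈ insert a T, ¬ B j f) := by
        refine nb_congr fun f => ?_
        simp only [Finset.mem_insert, forall_eq_or_imp]
        tauto
      rw [← h5]
      nlinarith [h2, h3, h4, ih]
  obtain ⟨f, hf⟩ := nb_exists (pos Finset.univ)
  exact ⟨f, fun i => hf i (Finset.mem_univ i)⟩

theorem fix_card {ι : Type} [Fintype ι] (e : ι → P) (N : Set P) (hN : ∀ p ∈ N, ∃ x, e x = p)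
    (c : P → V) :
    nb (fun _ : P → V => True) ≤
      nb (fun f : P → V => ∀ p ∈ N, f p = c p) * ((Fintype.card V : ℝ) ^ Fintype.card ι) := by
  have h1 : (Finset.univ.filter (fun _ : P → V => True)).card ≤
      ((Finset.univ.filter (fun f : P → V => ∀ p ∈ N, f p = c p)) ×ˢ
        (Finset.univ : Finset (ι → V))).card := by
    refine Finset.card_le_card_of_injOn
      (fun f => ((fun p => if p ∈ N then c p else f p), fun x => f (e x))) ?_ ?_
    · intro f _
      simp only [Finset.coe_product, Finset.coe_filter, Finset.mem_univ, true_and, Set.mem_prod,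
        Set.mem_setOf_eq, Finset.coe_univ, Set.mem_univ, and_true]
      intro p hp
      simp only [if_pos hp]
    · intro f _ g _ hfg
      simp only [Prod.mk.injEq] at hfg
      funext p
      by_cases hp : p ∈ N
      · obtain ⟨x, rfl⟩ := hN p hp
        exact congrFun hfg.2 x
      · have := congrFun hfg.1 p
        simp only [if_neg hp] at this
        exact this
  rw [Finset.card_product] at h1
  have h2 : (Finset.univ : Finset (ι → V)).card = Fintype.card V ^ Fintype.card ι := by
    rw [Finset.card_univ, Fintype.card_fun]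
  rw [h2] at h1
  have h3 := (Nat.cast_le (α := ℝ)).2 h1
  rw [Nat.cast_mul, Nat.cast_pow] at h3
  rw [nb_eq (fun _ : P → V => True), nb_eq (fun f : P → V => ∀ p ∈ N, f p = c p)]
  exact h3

theorem nb_fiber (a : P) (A : (P → V) → Prop) :
    nb A = ∑ v : V, nb (fun f => A f ∧ f a = v) := by
  rw [nb_eq A]
  have h := Finset.card_eq_sum_card_fiberwise (s := Finset.univ.filter A)
    (t := (Finset.univ : Finset V)) (f := fun f : P → V => f a)
    (fun _ _ => by simp)
  rw [h, Nat.cast_sum]
  refine Finset.sum_congr rfl fun v _ => ?_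
  rw [nb_eq (fun f => A f ∧ f a = v), Finset.filter_filter]

end lll

section lines

variable {V M : Type} [Fintype V] [Fintype M] [AddCommGroup V] {K : ℕ}

/-- the line in direction `k` through `a` serves `y` -/
def Srv (h : (Fin K → M) → V → V) (k : Fin K) (a : Fin K → M) (y : V) (f : (Fin K → M) → V) :
    Prop :=
  ∀ x : M, h (Function.update a k x) y + f (Function.update a k x) = h a y + f a

def Bad (h : (Fin K → M) → V → V) (a : Fin K → M) (y : V) (f : (Fin K → M) → V) : Prop :=
  ∀ k : Fin K, ¬ Srv h k a y f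

/-- the points on the lines through `a` -/
def Nbh (a : Fin K → M) : Set (Fin K → M) := {p | ∃ k x, p = Function.update a k x}

/-- the points different from `a` on one line through `a` -/
def Nk (a : Fin K → M) (k : Fin K) : Set (Fin K → M) :=
  {p | ∃ x, x ≠ a k ∧ p = Function.update a k x}

theorem Nbh_card (a : Fin K → M) :
    (Finset.univ.filter (fun j : (Fin K → M) × V => ¬ Disjoint (Nbh a) (Nbh j.1))).card ≤
      K * (Fintype.card M * (K * (Fintype.card M * Fintype.card V))) := by
  have h1 : (Finset.univ.filter (fun j : (Fin K → M) × V => ¬ Disjoint (Nbh a) (Nbh j.1))) ⊆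
      (Finset.univ : Finset (Fin K × M × Fin K × M × V)).image
        (fun t => (Function.update (Function.update a t.1 t.2.1) t.2.2.1 t.2.2.2.1, t.2.2.2.2)) := by
    rintro ⟨b, y⟩ hb
    rw [Finset.mem_filter] at hb
    obtain ⟨p, ⟨k, x, hp⟩, ⟨k', x', hp'⟩⟩ := Set.not_disjoint_iff.1 hb.2
    rw [Finset.mem_image]
    refine ⟨(k, x, k', b k', y), Finset.mem_univ _, ?_⟩
    simp only [Prod.mk.injEq, and_true]
    rw [← hp, hp', Function.update_idem, Function.update_eq_self]
  refine (Finset.card_le_card h1).trans (Finset.card_image_le.trans ?_)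
  simp [Fintype.card_prod]

theorem Bad_dep (hK : 0 < K) (h : (Fin K → M) → V → V) (a : Fin K → M) (y : V) :
    Dep (Nbh a) (Bad h a y) := by
  intro f g hfg
  have e1 : f a = g a := hfg a ⟨⟨0, hK⟩, a ⟨0, hK⟩, by rw [Function.update_eq_self]⟩
  refine forall_congr' fun k => not_congr (forall_congr' fun x => ?_)
  rw [e1, hfg _ ⟨k, x, rfl⟩]

/-- the event that the line in direction `k` serves, if `f a = v` -/
def Av (h : (Fin K → M) → V → V) (a : Fin K → M) (y v : V) (k : Fin K) (f : (Fin K → M) → V) :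
    Prop :=
  ∀ x : M, x ≠ a k → h (Function.update a k x) y + f (Function.update a k x) = h a y + v

theorem Av_dep (h : (Fin K → M) → V → V) (a : Fin K → M) (y v : V) (k : Fin K) :
    Dep (Nk a k) (Av h a y v k) := by
  intro f g hfg
  refine forall₂_congr fun x hx => ?_
  rw [hfg _ ⟨x, hx, rfl⟩]

theorem Av_card (h : (Fin K → M) → V → V) (a : Fin K → M) (y v : V) (k : Fin K) :
    nb (fun _ : (Fin K → M) → V => True) ≤
      nb (Av h a y v k) * ((Fintype.card V : ℝ) ^ Fintype.card M) := by
  have h1 := fix_card (V := V) (fun x : M => Function.update a k x) (Nk a k)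
    (by rintro p ⟨x, -, rfl⟩; exact ⟨x, rfl⟩) (fun p => h a y + v - h p y)
  refine h1.trans (mul_le_mul_of_nonneg_right (nb_mono fun f hf x hx => ?_) (by positivity))
  rw [hf _ ⟨x, hx, rfl⟩]
  abel

theorem Nk_disj (a : Fin K → M) {k k' : Fin K} (hk : k ≠ k') : Disjoint (Nk a k) (Nk a k') := by
  rw [Set.disjoint_left]
  rintro p ⟨x, hx, rfl⟩ ⟨x', hx', he⟩
  have := congrFun he k
  rw [Function.update_self, Function.update_of_ne hk] at this
  exact hx this

theorem Bad_card [Nonempty V] (h : (Fin K → M) → V → V) (a : Fin K → M) (y : V) :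
    nb (Bad h a y) ≤ (1 - 1 / ((Fintype.card V : ℝ) ^ Fintype.card M)) ^ K *
      nb (fun _ : (Fin K → M) → V => True) := by
  set Q : ℝ := (Fintype.card V : ℝ) ^ Fintype.card M with hQ
  have hV : (1 : ℝ) ≤ Fintype.card V := by exact_mod_cast Fintype.card_pos
  have hQ1 : 1 ≤ Q := one_le_pow₀ hV
  have hr0 : 0 ≤ 1 - 1 / Q := by
    have : 1 / Q ≤ 1 := by rw [div_le_one (by linarith)]; exact hQ1
    linarith
  have hΩ : 0 < nb (fun _ : (Fin K → M) → V => True) := by
    unfold nb
    exact Nat.cast_pos.2 (Finset.card_pos.2 ⟨fun _ => Classical.arbitrary V, by simp⟩)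
  have step : ∀ (v : V) (T : Finset (Fin K)),
      nb (fun f => (∀ k ∈ T, ¬ Av h a y v k f) ∧ f a = v) ≤
        (1 - 1 / Q) ^ T.card * nb (fun f : (Fin K → M) → V => f a = v) := by
    intro v T
    induction T using Finset.cons_induction_on with
    | empty =>
      have : nb (fun f => (∀ k ∈ (∅ : Finset (Fin K)), ¬ Av h a y v k f) ∧ f a = v) =
        nb (fun f : (Fin K → M) → V => f a = v) := nb_congr fun f => by simp
      rw [this]; simp
    | cons k T hk ih =>
      have h1 := nb_split (fun f => (∀ k ∈ T, ¬ Av h a y v k f) ∧ f a = v) (Av h a y v k)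
      have h2 : nb (fun f => ((∀ k ∈ T, ¬ Av h a y v k f) ∧ f a = v) ∧ ¬ Av h a y v k f) =
          nb (fun f => (∀ j ∈ Finset.cons k T hk, ¬ Av h a y v j f) ∧ f a = v) := by
        refine nb_congr fun f => ?_
        simp only [Finset.mem_cons, forall_eq_or_imp]
        tauto
      have hd1 : Dep ((⋃ k' ∈ T, Nk a k') ∪ {a})
          (fun f => (∀ k ∈ T, ¬ Av h a y v k f) ∧ f a = v) := by
        refine Dep.and (Dep.ball T fun k' _ => (Av_dep h a y v k').not) ?_
        intro f g hfg
        simp only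
        rw [hfg a rfl]
      have hdis : Disjoint (Nk a k) ((⋃ k' ∈ T, Nk a k') ∪ {a}) := by
        rw [Set.disjoint_union_right, Set.disjoint_iUnion₂_right]
        refine ⟨fun k' hk' => Nk_disj a (fun e => hk (e ▸ hk')), ?_⟩
        rw [Set.disjoint_singleton_right]
        rintro ⟨x, hx, he⟩
        have := congrFun he k
        rw [Function.update_self] at this
        exact hx this.symm
      have h3 := indep (Av_dep h a y v k) hd1 hdis
      have h4 := Av_card h a y v k
      rw [← hQ] at h4
      have h5 : nb (fun f => ((∀ k ∈ T, ¬ Av h a y v k f) ∧ f a = v) ∧ Av h a y v k f) =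
          nb (fun f => Av h a y v k f ∧ ((∀ k ∈ T, ¬ Av h a y v k f) ∧ f a = v)) :=
        nb_congr fun f => and_comm
      rw [← h5] at h3
      rw [← h2, Finset.card_cons, pow_succ]
      set X := nb (fun f => (∀ k ∈ T, ¬ Av h a y v k f) ∧ f a = v)
      set Y := nb (fun f => ((∀ k ∈ T, ¬ Av h a y v k f) ∧ f a = v) ∧ Av h a y v k f)
      set Z := nb (fun f => ((∀ k ∈ T, ¬ Av h a y v k f) ∧ f a = v) ∧ ¬ Av h a y v k f)
      set Ω := nb (fun _ : (Fin K → M) → V => True)
      set A := nb (Av h a y v k)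
      have hX0 : 0 ≤ X := nb_nonneg _
      have h6 : X / Q ≤ Y := by
        have h7 : X * Ω ≤ Y * Q * Ω := by
          calc X * Ω ≤ X * (A * Q) := mul_le_mul_of_nonneg_left h4 hX0
            _ = (A * X) * Q := by ring
            _ = Y * Ω * Q := by rw [← h3]
            _ = Y * Q * Ω := by ring
        have h8 := le_of_mul_le_mul_right h7 hΩ
        rw [div_le_iff₀ (by linarith)]
        exact h8
      have h9 : Z ≤ X * (1 - 1 / Q) := by
        have : X * (1 - 1 / Q) = X - X / Q := by ring
        rw [this]; linarith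
      calc Z ≤ X * (1 - 1 / Q) := h9
        _ ≤ ((1 - 1 / Q) ^ T.card * nb (fun f : (Fin K → M) → V => f a = v)) * (1 - 1 / Q) :=
          mul_le_mul_of_nonneg_right ih hr0
        _ = _ := by ring
  rw [nb_fiber a (Bad h a y), nb_fiber a (fun _ : (Fin K → M) → V => True), Finset.mul_sum]
  refine Finset.sum_le_sum fun v _ => ?_
  have h1 := step v Finset.univ
  rw [Finset.card_univ, Fintype.card_fin] at h1
  have h2 : nb (fun f : (Fin K → M) → V => True ∧ f a = v) =
      nb (fun f : (Fin K → M) → V => f a = v) := nb_congr fun f => by simp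
  rw [h2]
  refine le_trans (nb_mono fun f hf => ⟨fun k _ hk => ?_, hf.2⟩) h1
  refine hf.1 k fun x => ?_
  by_cases hx : x = a k
  · subst hx
    rw [Function.update_eq_self]
  · rw [hf.2]
    exact hk x hx

/-- The lines lemma. -/
theorem lines (V M : Type) [Fintype V] [Fintype M] [AddCommGroup V] :
    ∃ K : ℕ, 0 < K ∧ ∀ h : (Fin K → M) → V → V, ∃ f : (Fin K → M) → V,
      ∀ (a : Fin K → M) (y : V), ∃ k : Fin K, Srv h k a y f := by
  set Q : ℝ := (Fintype.card V : ℝ) ^ Fintype.card M with hQ
  have hV : (1 : ℝ) ≤ Fintype.card V := by exact_mod_cast Fintype.card_pos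
  have hQ1 : 1 ≤ Q := one_le_pow₀ hV
  set r : ℝ := 1 - 1 / Q with hr
  have hQi : 0 < 1 / Q := by positivity
  have hQi1 : 1 / Q ≤ 1 := by rw [div_le_one (by linarith)]; exact hQ1
  have hr0 : 0 ≤ r := by linarith
  have hr1 : |r| < 1 := by rw [abs_of_nonneg hr0]; linarith
  have ht := tendsto_pow_const_mul_const_pow_of_abs_lt_one 2 hr1
  set C : ℝ := (Fintype.card M : ℝ) ^ 2 * Fintype.card V + 1 with hC
  have hC1 : 1 ≤ C := by
    have : (0 : ℝ) ≤ (Fintype.card M : ℝ) ^ 2 * Fintype.card V := by positivity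
    linarith
  have hev := (ht.eventually (gt_mem_nhds (show (0 : ℝ) < 1 / (4 * C) by positivity))).and
    (Filter.eventually_gt_atTop 0)
  obtain ⟨K, hK, hK0⟩ := hev.exists
  have hKC : 4 * C * ((K : ℝ) ^ 2 * r ^ K) ≤ 1 := by
    rw [lt_div_iff₀ (by positivity)] at hK
    linarith
  have hK1 : (1 : ℝ) ≤ (K : ℝ) ^ 2 := one_le_pow₀ (by exact_mod_cast hK0)
  have hrK : 0 ≤ r ^ K := pow_nonneg hr0 K
  refine ⟨K, hK0, fun h => ?_⟩
  obtain ⟨f, hf⟩ := local_lemma (P := Fin K → M) (V := V) (ι := (Fin K → M) × V)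
    (fun i => Nbh i.1) (fun i => Bad h i.1 i.2) (fun i => Bad_dep hK0 h i.1 i.2)
    (K * (Fintype.card M * (K * (Fintype.card M * Fintype.card V)))) (r ^ K) hrK
    (fun i => Nbh_card i.1) (fun i => Bad_card h i.1 i.2) (by
      push_cast
      have h1 : (4 : ℝ) * (K * (Fintype.card M * (K * (Fintype.card M * Fintype.card V)))) * r ^ K
          = 4 * ((Fintype.card M : ℝ) ^ 2 * Fintype.card V) * ((K : ℝ) ^ 2 * r ^ K) := by ring
      rw [h1]
      have h2 : (Fintype.card M : ℝ) ^ 2 * Fintype.card V ≤ C := by linarith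
      have h3 : 0 ≤ (K : ℝ) ^ 2 * r ^ K := by positivity
      nlinarith) (by
      have h3 : r ^ K ≤ (K : ℝ) ^ 2 * r ^ K := by nlinarith
      have h4 : 0 ≤ (K : ℝ) ^ 2 * r ^ K := by positivity
      nlinarith)
  refine ⟨f, fun a y => ?_⟩
  by_contra hne
  push Not at hne
  exact hf (a, y) hne

end lines

end Vale.Agent.P329.Clock
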