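import Vale.Agent.P329.Clock.Clk

set_option linter.all false

/-!
The reduction to clocked stars of finite sets.
-/

namespace Vale.Agent.P329.Clock

open Vale.Agent.P329 Vale.Agent.P329.Slow Vale.Agent.P329.Mark

section lab

variable {α : Type} {R : ℕ}

/-- attach the time to the letters -/
def lab : ZMod R → List α → List (α × ZMod R)
  | _, [] => []
  | j, a :: w => (a, j) :: lab (j + 1) w

theorem lab_length (j : ZMod R) (w : List α) : (lab j w).length = w.length := by
  induction w generalizing j with
  | nil => rfl
  | cons a w ih => simp [lab, ih]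

theorem lab_append (j : ZMod R) (u v : List α) :
    lab j (u ++ v) = lab j u ++ lab (j + (u.length : ZMod R)) v := by
  induction u generalizing j with
  | nil => simp [lab]
  | cons a u ih =>
    rw [List.cons_append, lab, lab, ih, List.cons_append, List.length_cons, Nat.cast_add,
      Nat.cast_one]
    congr 3
    ring

theorem map_lab (j : ZMod R) (w : List α) : (lab j w).map Prod.fst = w := by
  induction w generalizing j with
  | nil => rfl
  | cons a w ih => simp [lab, ih]

theorem lab_inj (j : ZMod R) : Function.Injective (lab j : List α → List (α × ZMod R)) :=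
  fun u v h => by rw [← map_lab j u, h, map_lab]

theorem lab_split {j : ZMod R} {w : List α} {x y : List (α × ZMod R)} (h : x ++ y = lab j w) :
    ∃ u v, u ++ v = w ∧ lab j u = x ∧ lab (j + (u.length : ZMod R)) v = y := by
  refine ⟨w.take x.length, w.drop x.length, List.take_append_drop _ _, ?_⟩
  have h1 : x.length ≤ w.length := by
    rw [← lab_length j w, ← h, List.length_append]; omega
  have h2 : lab j (w.take x.length) ++ lab (j + ((w.take x.length).length : ZMod R))
      (w.drop x.length) = x ++ y := by
    rw [← lab_append, List.take_append_drop, h]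
  exact List.append_inj h2 (by rw [lab_length, List.length_take]; omega)

theorem lab_drop (j : ZMod R) (w : List α) (i : ℕ) :
    (lab j w).drop i = lab (j + (i : ZMod R)) (w.drop i) := by
  induction i generalizing j w with
  | zero => simp
  | succ i ih =>
    cases w with
    | nil => simp [lab]
    | cons a w =>
      rw [lab, List.drop_succ_cons, List.drop_succ_cons, ih, Nat.cast_add, Nat.cast_one]
      congr 1
      ring

/-- read the time -/
def tm (x : List (α × ZMod R)) : ZMod R := (x.head?.map Prod.snd).getD 0

theorem lab_wclk (w : List α) : WClk 1 tm (lab (0 : ZMod R) w) := by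
  intro i hi
  rw [lab_length] at hi
  rw [lab_drop, zero_add, List.drop_eq_getElem_cons (by omega)]
  rfl

/-- lengths modulo `R` -/
theorem SH.lenmod [Finite α] [NeZero R] (d : ZMod R) :
    SH 1 {w : List α | (w.length : ZMod R) = d} := by
  have h1 : SH 1 (P329.cat (P329.kst {u : List α | u.length = R})
      {v : List α | v.length = d.val}) :=
    (SH.finite0 (finite_of_length R fun w hw => le_of_eq hw)).kst.cat
      (SH.finite0 (finite_of_length d.val fun w hw => le_of_eq hw)).of_zero
  convert h1 using 1
  ext w
  constructor
  · intro hw
    have key : ∀ (n : ℕ) (w : List α), w.length = R * n + d.val →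
        w ∈ P329.cat (P329.kst {u : List α | u.length = R}) {v : List α | v.length = d.val} := by
      intro n
      induction n with
      | zero =>
        intro w hw
        exact ⟨[], ⟨[], by simp, rfl⟩, w, by simpa using hw, rfl⟩
      | succ n ih =>
        intro w hw
        rw [Nat.mul_add, Nat.mul_one] at hw
        obtain ⟨k, hk, v, hv, hkv⟩ := ih (w.drop R) (by rw [List.length_drop]; omega)
        refine ⟨w.take R ++ k, kst_cons' (by
          show (w.take R).length = R
          rw [List.length_take]; omega) hk, v, hv, ?_⟩
        rw [List.append_assoc, hkv, List.take_append_drop]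
    refine key (w.length / R) w ?_
    have h2 : d.val = w.length % R := by
      rw [← (show (w.length : ZMod R) = d from hw), ZMod.val_natCast]
    rw [h2]
    exact (Nat.div_add_mod _ _).symm
  · rintro ⟨_, ⟨l, hl, rfl⟩, v, hv, rfl⟩
    show ((l.flatten ++ v).length : ZMod R) = d
    have h2 : (l.flatten.length : ZMod R) = 0 := by
      induction l with
      | nil => simp
      | cons u l ih =>
        rw [List.flatten_cons, List.length_append, Nat.cast_add,
          ih fun u hu => hl u (List.mem_cons_of_mem _ hu),
          show u.length = R from hl u List.mem_cons_self, ZMod.natCast_self, add_zero]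
    rw [List.length_append, Nat.cast_add, h2, zero_add, show v.length = d.val from hv,
      ZMod.natCast_zmod_val]

theorem kst_lab_iff (A : Set (List (α × ZMod R))) (j : ZMod R) (w : List α) :
    lab j w ∈ P329.kst A ↔ CStar (fun i => {u : List α | lab (j + i) u ∈ A}) 0 w := by
  constructor
  · rintro ⟨l, hl, h⟩
    have key : ∀ (l : List (List (α × ZMod R))), (∀ u ∈ l, u ∈ A) → ∀ (i : ZMod R) (w : List α),
        l.flatten = lab (j + i) w → CStar (fun i => {u : List α | lab (j + i) u ∈ A}) i w := by
      intro l
      induction l with
      | nil =>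
        intro _ i w h
        have h1 : w = [] := by
          have := congrArg List.length h
          rw [lab_length] at this
          exact List.eq_nil_of_length_eq_zero this.symm
        rw [h1]
        exact CStar.nil i
      | cons x l ih =>
        intro hl i w h
        rw [List.flatten_cons] at h
        obtain ⟨u, v, rfl, h1, h2⟩ := lab_split h
        refine CStar.cons i u v ?_ (ih (fun u hu => hl u (List.mem_cons_of_mem _ hu)) _ v ?_)
        · show lab (j + i) u ∈ A
          rw [h1]
          exact hl x List.mem_cons_self
        · rw [← add_assoc, h2]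
    exact key l hl 0 w (by rw [add_zero, h])
  · have key : ∀ (i : ZMod R) (w : List α), CStar (fun i => {u : List α | lab (j + i) u ∈ A}) i w →
        lab (j + i) w ∈ P329.kst A := by
      intro i w h
      induction h with
      | nil i => exact ⟨[], by simp, rfl⟩
      | cons i u w hu _ ih =>
        rw [lab_append, add_assoc]
        exact kst_cons' hu ih
    intro h
    have := key 0 w h
    rwa [add_zero] at this

theorem cls_lab [Finite α] [NeZero R] {k : ℕ} (hk : 1 ≤ k)
    (h : ∀ F : ZMod R → Set (List α), (∀ i, (F i).Finite) → SH k {w : List α | CStar F 0 w}) :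
    Cls (fun X : Set (List (α × ZMod R)) => ∀ j : ZMod R, SH k {w : List α | lab j w ∈ X}) where
  empty j := by
    show SH k {w : List α | False}
    exact SH.empty
  word v j := (SH.finite0 (finite_of_length v.length fun w hw => by
    rw [← lab_length j w, show lab j w = v from hw])).of_zero
  compl hA j := (hA j).compl
  union hA hB j := (hA j).union (hB j)
  cat {A B} hA hB j := by
    have h1 : SH k (⋃ d : ZMod R, P329.cat ({u : List α | lab j u ∈ A} ∩
        {u : List α | (u.length : ZMod R) = d}) {v : List α | lab (j + d) v ∈ B}) :=
      SH.iUnion fun d => ((hA j).inter ((SH.lenmod d).mono hk)).cat (hB (j + d))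
    convert h1 using 1
    ext w
    rw [Set.mem_iUnion]
    constructor
    · rintro ⟨x, hx, y, hy, hxy⟩
      obtain ⟨u, v, rfl, h2, h3⟩ := lab_split hxy
      exact ⟨u.length, u, ⟨by rw [Set.mem_setOf_eq, h2]; exact hx, rfl⟩, v,
        by rw [Set.mem_setOf_eq, h3]; exact hy, rfl⟩
    · rintro ⟨d, u, ⟨hu, hd⟩, v, hv, rfl⟩
      refine ⟨lab j u, hu, lab (j + d) v, hv, ?_⟩
      rw [lab_append, show (u.length : ZMod R) = d from hd]
  kst {A} hA j := by
    have h1 := h (fun i => {u : List α | lab (j + i) u ∈ A})
      fun i => hA.preimage (lab_inj (j + i)).injOn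
    convert h1 using 1
    ext w
    exact kst_lab_iff A j w

/-- If clocked stars of finite sets have height at most `k`, then so does every regular
language. -/
theorem reduction (k : ℕ) (hk : 1 ≤ k) (α : Type) [Finite α]
    (h : ∀ R₀ : ℕ, ∃ R ≥ R₀, ∀ F : ZMod R → Set (List α), (∀ i, (F i).Finite) →
      SH k {w : List α | CStar F 0 w})
    (L : Language α) (hL : L.IsRegular) : SH k (L : Set (List α)) := by
  obtain ⟨σ, hσ, A, rfl⟩ := hL
  obtain ⟨N, hN0, hN⟩ := regular_wclk (Fintype.card σ)
  obtain ⟨R, hR, hF⟩ := h (N * 1)
  have : NeZero R := ⟨by omega⟩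
  have : Finite (ZMod R) := Finite.of_fintype _
  have h1 := hN (α × ZMod R) _ (cls_lab hk hF)
    ((DFA.reindex (Fintype.equivFin σ) A).comap Prod.fst) R 1 one_pos hR tm 0
  have h2 : ∀ w : List α, lab (0 : ZMod R) w ∈ ((DFA.reindex (Fintype.equivFin σ) A).comap
      Prod.fst).accepts ↔ w ∈ A.accepts := by
    intro w
    rw [DFA.accepts_comap, DFA.accepts_reindex]
    show (lab (0 : ZMod R) w).map Prod.fst ∈ A.accepts ↔ _
    rw [map_lab]
  show SH k {w : List α | w ∈ A.accepts}
  convert h1 using 1
  ext w
  constructor
  · intro hw
    exact ⟨(h2 w).2 hw, lab_wclk w⟩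
  · rintro ⟨hw, -⟩
    exact (h2 w).1 hw

end lab

end Vale.Agent.P329.Clock
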